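import Vale.Agent.P088.R2.H558.Defs

/-!
# P088, two metrics near the flat one: calculus of `∂_x`, `∂_y` on pairs (for row CO2)
-/

open MeasureTheory Set
open scoped ContDiff Matrix

noncomputable section

namespace Vale.Agent.P088.HY.H16

open Vale.Agent.P088.LR Vale.Agent.P088.HY

variable {n : ℕ}

/-- The vector `(e_i, 0)`. -/
def ex (i : Fin n) : VV n := (Pi.single i 1, 0)

/-- The vector `(0, e_i)`. -/
def ey (i : Fin n) : VV n := (0, Pi.single i 1)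

/-- The derivative in the direction `v`. -/
def dd (v : VV n) (f : VV n → ℝ) (z : VV n) : ℝ := fderiv ℝ f z v

theorem dx_eq (i : Fin n) (f : VV n → ℝ) : dx i f = dd (ex i) f := rfl
theorem dy_eq (i : Fin n) (f : VV n → ℝ) : dy i f = dd (ey i) f := rfl

theorem continuous_sq : Continuous (sq : V n → ℝ) := by
  unfold sq; fun_prop

theorem contDiff_sq : ContDiff ℝ ∞ (sq : V n → ℝ) := by
  unfold sq; fun_prop

theorem isOpen_Bn : IsOpen (Bn n) := isOpen_lt continuous_sq continuous_const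

theorem isOpen_Bs (ρ : ℝ) : IsOpen (Bs n ρ) := isOpen_lt continuous_sq continuous_const

theorem isOpen_Un : IsOpen (Un n) := isOpen_Bn.prod isOpen_Bn

theorem contDiffOn_dd {U : Set (VV n)} (hU : IsOpen U) (v : VV n) {f : VV n → ℝ}
    (hf : ContDiffOn ℝ ∞ f U) : ContDiffOn ℝ ∞ (dd v f) U := by
  have h := hf.fderiv_of_isOpen (m := ∞) hU (by simp)
  exact h.clm_apply contDiffOn_const

theorem contDiff_dd (v : VV n) {f : VV n → ℝ} (hf : ContDiff ℝ ∞ f) : ContDiff ℝ ∞ (dd v f) := by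
  have h := hf.fderiv_right (m := ∞) (by simp)
  exact h.clm_apply contDiff_const

theorem dd_congr {U : Set (VV n)} (hU : IsOpen U) (v : VV n) {f g : VV n → ℝ}
    (h : ∀ z ∈ U, f z = g z) : ∀ z ∈ U, dd v f z = dd v g z := by
  intro z hz
  have : f =ᶠ[nhds z] g := Filter.eventually_of_mem (hU.mem_nhds hz) h
  unfold dd
  rw [this.fderiv_eq]

theorem dd_sub {U : Set (VV n)} (hU : IsOpen U) (v : VV n) {f g : VV n → ℝ}
    (hf : ContDiffOn ℝ ∞ f U) (hg : ContDiffOn ℝ ∞ g U) :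
    ∀ z ∈ U, dd v (fun z => f z - g z) z = dd v f z - dd v g z := by
  intro z hz
  have h1 : DifferentiableAt ℝ f z :=
    (hf.contDiffAt (hU.mem_nhds hz)).differentiableAt (by simp)
  have h2 : DifferentiableAt ℝ g z :=
    (hg.contDiffAt (hU.mem_nhds hz)).differentiableAt (by simp)
  unfold dd
  rw [fderiv_fun_sub h1 h2]
  rfl

theorem dd_comm {U : Set (VV n)} (hU : IsOpen U) (v w : VV n) {f : VV n → ℝ}
    (hf : ContDiffOn ℝ ∞ f U) : ∀ z ∈ U, dd v (dd w f) z = dd w (dd v f) z := by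
  intro z hz
  have hd : DifferentiableAt ℝ (fderiv ℝ f) z := by
    have h := hf.fderiv_of_isOpen (m := ∞) hU (by simp)
    exact (h.contDiffAt (hU.mem_nhds hz)).differentiableAt (by simp)
  have hs : IsSymmSndFDerivAt ℝ f z :=
    (hf.contDiffAt (hU.mem_nhds hz)).isSymmSndFDerivAt (by
      rw [minSmoothness_of_isRCLikeNormedField]
      exact ENat.LEInfty.out)
  have e : ∀ a b : VV n, dd a (dd b f) z = fderiv ℝ (fderiv ℝ f) z a b := by
    intro a b
    unfold dd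
    have h : HasFDerivAt (fun z => fderiv ℝ f z b)
        ((ContinuousLinearMap.apply ℝ ℝ b).comp (fderiv ℝ (fderiv ℝ f) z)) z :=
      (ContinuousLinearMap.apply ℝ ℝ b).hasFDerivAt.comp z hd.hasFDerivAt
    rw [h.fderiv]
    simp
  rw [e, e]
  exact hs _ _

/-- A factor which is constant in the direction `v` comes out. -/
theorem dd_mul_left {U : Set (VV n)} (hU : IsOpen U) (v : VV n) {a f : VV n → ℝ}
    (ha : ContDiff ℝ ∞ a) (hf : ContDiffOn ℝ ∞ f U) (h0 : ∀ z, dd v a z = 0) :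
    ∀ z ∈ U, dd v (fun z => a z * f z) z = a z * dd v f z := by
  intro z hz
  have h1 : DifferentiableAt ℝ a z := ha.differentiable (by simp) z
  have h2 : DifferentiableAt ℝ f z :=
    (hf.contDiffAt (hU.mem_nhds hz)).differentiableAt (by simp)
  unfold dd
  rw [fderiv_fun_mul h1 h2]
  have := h0 z
  unfold dd at this
  simp [this]

theorem dd_sum {U : Set (VV n)} (hU : IsOpen U) (v : VV n) {ι : Type} (t : Finset ι)
    {f : ι → VV n → ℝ} (hf : ∀ i ∈ t, ContDiffOn ℝ ∞ (f i) U) :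
    ∀ z ∈ U, dd v (fun z => ∑ i ∈ t, f i z) z = ∑ i ∈ t, dd v (f i) z := by
  intro z hz
  unfold dd
  rw [fderiv_fun_sum]
  · simp
  · intro i hi
    exact ((hf i hi).contDiffAt (hU.mem_nhds hz)).differentiableAt (by simp)

theorem dd_ey_fst (j : Fin n) {a : V n → ℝ} (ha : ContDiff ℝ ∞ a) (z : VV n) :
    dd (ey j) (fun z => a z.1) z = 0 := by
  unfold dd ey
  have h : HasFDerivAt (fun z : VV n => a z.1)
      ((fderiv ℝ a z.1).comp (ContinuousLinearMap.fst ℝ (V n) (V n))) z :=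
    (ha.differentiable (by simp) z.1).hasFDerivAt.comp z hasFDerivAt_fst
  rw [h.fderiv]
  simp

theorem dd_ex_snd (j : Fin n) {a : V n → ℝ} (ha : ContDiff ℝ ∞ a) (z : VV n) :
    dd (ex j) (fun z => a z.2) z = 0 := by
  unfold dd ex
  have h : HasFDerivAt (fun z : VV n => a z.2)
      ((fderiv ℝ a z.2).comp (ContinuousLinearMap.snd ℝ (V n) (V n))) z :=
    (ha.differentiable (by simp) z.2).hasFDerivAt.comp z hasFDerivAt_snd
  rw [h.fderiv]
  simp

theorem contDiff_fst' {a : V n → ℝ} (ha : ContDiff ℝ ∞ a) :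
    ContDiff ℝ ∞ (fun z : VV n => a z.1) := ha.comp contDiff_fst

theorem contDiff_snd' {a : V n → ℝ} (ha : ContDiff ℝ ∞ a) :
    ContDiff ℝ ∞ (fun z : VV n => a z.2) := ha.comp contDiff_snd

theorem contDiffOn_Lx {U : Set (VV n)} (hU : IsOpen U) {s : MF n} (hs : SmM s) {f : VV n → ℝ}
    (hf : ContDiffOn ℝ ∞ f U) : ContDiffOn ℝ ∞ (Lx s f) U := by
  unfold Lx
  simp only [dx_eq]
  refine ContDiffOn.sum fun i _ => ContDiffOn.sum fun j _ => ?_
  exact (contDiff_fst' (hs i j)).contDiffOn.mul (contDiffOn_dd hU _ (contDiffOn_dd hU _ hf))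

theorem contDiffOn_Ly {U : Set (VV n)} (hU : IsOpen U) {s : MF n} (hs : SmM s) {f : VV n → ℝ}
    (hf : ContDiffOn ℝ ∞ f U) : ContDiffOn ℝ ∞ (Ly s f) U := by
  unfold Ly
  simp only [dy_eq]
  refine ContDiffOn.sum fun i _ => ContDiffOn.sum fun j _ => ?_
  exact (contDiff_snd' (hs i j)).contDiffOn.mul (contDiffOn_dd hU _ (contDiffOn_dd hU _ hf))

theorem Lx_sub {U : Set (VV n)} (hU : IsOpen U) (s : MF n) {f g : VV n → ℝ}
    (hf : ContDiffOn ℝ ∞ f U) (hg : ContDiffOn ℝ ∞ g U) :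
    ∀ z ∈ U, Lx s (fun z => f z - g z) z = Lx s f z - Lx s g z := by
  intro z hz
  unfold Lx
  simp only [dx_eq]
  simp only [← Finset.sum_sub_distrib]
  refine Finset.sum_congr rfl fun i _ => Finset.sum_congr rfl fun j _ => ?_
  rw [dd_congr hU (ex i) (dd_sub hU (ex j) hf hg) z hz,
    dd_sub hU _ (contDiffOn_dd hU _ hf) (contDiffOn_dd hU _ hg) z hz]
  ring

theorem Ly_sub {U : Set (VV n)} (hU : IsOpen U) (s : MF n) {f g : VV n → ℝ}
    (hf : ContDiffOn ℝ ∞ f U) (hg : ContDiffOn ℝ ∞ g U) :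
    ∀ z ∈ U, Ly s (fun z => f z - g z) z = Ly s f z - Ly s g z := by
  intro z hz
  unfold Ly
  simp only [dy_eq]
  simp only [← Finset.sum_sub_distrib]
  refine Finset.sum_congr rfl fun i _ => Finset.sum_congr rfl fun j _ => ?_
  rw [dd_congr hU (ey i) (dd_sub hU (ey j) hf hg) z hz,
    dd_sub hU _ (contDiffOn_dd hU _ hf) (contDiffOn_dd hU _ hg) z hz]
  ring

/-- `∂_v ∂_w (∑ a_ij(x) ∂∂ k) = ∑ a_ij(x) ∂_v ∂_w ∂∂ k` for `y`-directions `v`, `w`. -/
theorem Lx_dy {U : Set (VV n)} (hU : IsOpen U) {s : MF n} (hs : SmM s) (b : Fin n)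
    {f : VV n → ℝ} (hf : ContDiffOn ℝ ∞ f U) :
    ∀ z ∈ U, dd (ey b) (Lx s f) z = Lx s (dd (ey b) f) z := by
  intro z hz
  unfold Lx
  simp only [dx_eq]
  have hij : ∀ i j, ContDiffOn ℝ ∞ (fun z => s z.1 i j * dd (ex i) (dd (ex j) f) z) U :=
    fun i j => (contDiff_fst' (hs i j)).contDiffOn.mul (contDiffOn_dd hU _ (contDiffOn_dd hU _ hf))
  rw [dd_sum hU _ _ (fun i _ => ContDiffOn.sum fun j _ => hij i j) z hz]
  refine Finset.sum_congr rfl fun i _ => ?_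
  rw [dd_sum hU _ _ (fun j _ => hij i j) z hz]
  refine Finset.sum_congr rfl fun j _ => ?_
  rw [dd_mul_left hU _ (contDiff_fst' (hs i j)) (contDiffOn_dd hU _ (contDiffOn_dd hU _ hf))
    (dd_ey_fst b (hs i j)) z hz]
  congr 1
  rw [dd_comm hU (ey b) (ex i) (contDiffOn_dd hU _ hf) z hz]
  exact dd_congr hU (ex i) (dd_comm hU (ey b) (ex j) hf) z hz

theorem Ly_dx {U : Set (VV n)} (hU : IsOpen U) {s : MF n} (hs : SmM s) (b : Fin n)
    {f : VV n → ℝ} (hf : ContDiffOn ℝ ∞ f U) :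
    ∀ z ∈ U, dd (ex b) (Ly s f) z = Ly s (dd (ex b) f) z := by
  intro z hz
  unfold Ly
  simp only [dy_eq]
  have hij : ∀ i j, ContDiffOn ℝ ∞ (fun z => s z.2 i j * dd (ey i) (dd (ey j) f) z) U :=
    fun i j => (contDiff_snd' (hs i j)).contDiffOn.mul (contDiffOn_dd hU _ (contDiffOn_dd hU _ hf))
  rw [dd_sum hU _ _ (fun i _ => ContDiffOn.sum fun j _ => hij i j) z hz]
  refine Finset.sum_congr rfl fun i _ => ?_
  rw [dd_sum hU _ _ (fun j _ => hij i j) z hz]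
  refine Finset.sum_congr rfl fun j _ => ?_
  rw [dd_mul_left hU _ (contDiff_snd' (hs i j)) (contDiffOn_dd hU _ (contDiffOn_dd hU _ hf))
    (dd_ex_snd b (hs i j)) z hz]
  congr 1
  rw [dd_comm hU (ex b) (ey i) (contDiffOn_dd hU _ hf) z hz]
  exact dd_congr hU (ey i) (dd_comm hU (ex b) (ey j) hf) z hz

theorem Lx_congr {U : Set (VV n)} (hU : IsOpen U) (s : MF n) {f g : VV n → ℝ}
    (h : ∀ z ∈ U, f z = g z) : ∀ z ∈ U, Lx s f z = Lx s g z := by
  intro z hz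
  unfold Lx
  simp only [dx_eq]
  refine Finset.sum_congr rfl fun i _ => Finset.sum_congr rfl fun j _ => ?_
  rw [dd_congr hU (ex i) (dd_congr hU (ex j) h) z hz]

/-- `L_y L_x = L_x L_y`. -/
theorem Ly_Lx {U : Set (VV n)} (hU : IsOpen U) {s₁ s₂ : MF n} (hs₁ : SmM s₁) (hs₂ : SmM s₂)
    {f : VV n → ℝ} (hf : ContDiffOn ℝ ∞ f U) :
    ∀ z ∈ U, Ly s₂ (Lx s₁ f) z = Lx s₁ (Ly s₂ f) z := by
  intro z hz
  have h1 : ∀ z ∈ U, Ly s₂ (Lx s₁ f) z = ∑ i, ∑ j, ∑ a, ∑ b,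
      s₂ z.2 i j * (s₁ z.1 a b * dd (ex a) (dd (ex b) (dd (ey i) (dd (ey j) f))) z) := by
    intro z hz
    unfold Ly
    simp only [dy_eq]
    refine Finset.sum_congr rfl fun i _ => Finset.sum_congr rfl fun j _ => ?_
    rw [dd_congr hU (ey i) (Lx_dy hU hs₁ j hf) z hz, Lx_dy hU hs₁ i (contDiffOn_dd hU _ hf) z hz]
    unfold Lx
    simp only [dx_eq, Finset.mul_sum]
  have h2 : ∀ z ∈ U, Lx s₁ (Ly s₂ f) z = ∑ a, ∑ b, ∑ i, ∑ j,
      s₁ z.1 a b * (s₂ z.2 i j * dd (ey i) (dd (ey j) (dd (ex a) (dd (ex b) f))) z) := by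
    intro z hz
    unfold Lx
    simp only [dx_eq]
    refine Finset.sum_congr rfl fun a _ => Finset.sum_congr rfl fun b _ => ?_
    rw [dd_congr hU (ex a) (Ly_dx hU hs₂ b hf) z hz, Ly_dx hU hs₂ a (contDiffOn_dd hU _ hf) z hz]
    unfold Ly
    simp only [dy_eq, Finset.mul_sum]
  have h4 : ∀ a b i j, dd (ex a) (dd (ex b) (dd (ey i) (dd (ey j) f))) z
      = dd (ey i) (dd (ey j) (dd (ex a) (dd (ex b) f))) z := by
    intro a b i j
    have e1 : ∀ z ∈ U, dd (ex b) (dd (ey i) (dd (ey j) f)) z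
        = dd (ey i) (dd (ey j) (dd (ex b) f)) z := by
      intro z hz
      rw [dd_comm hU (ex b) (ey i) (contDiffOn_dd hU _ hf) z hz]
      exact dd_congr hU (ey i) (dd_comm hU (ex b) (ey j) hf) z hz
    rw [dd_congr hU (ex a) e1 z hz]
    rw [dd_comm hU (ex a) (ey i) (contDiffOn_dd hU _ (contDiffOn_dd hU _ hf)) z hz]
    exact dd_congr hU (ey i) (dd_comm hU (ex a) (ey j) (contDiffOn_dd hU _ hf)) z hz
  rw [h1 z hz, h2 z hz]
  have sw : ∀ (T : Fin n → Fin n → Fin n → Fin n → ℝ), ∑ i, ∑ j, ∑ a, ∑ b, T i j a b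
      = ∑ a, ∑ b, ∑ i, ∑ j, T i j a b := by
    intro T
    calc ∑ i, ∑ j, ∑ a, ∑ b, T i j a b = ∑ i, ∑ a, ∑ j, ∑ b, T i j a b :=
          Finset.sum_congr rfl fun i _ => Finset.sum_comm
      _ = ∑ a, ∑ i, ∑ j, ∑ b, T i j a b := Finset.sum_comm
      _ = ∑ a, ∑ i, ∑ b, ∑ j, T i j a b :=
          Finset.sum_congr rfl fun a _ => Finset.sum_congr rfl fun i _ => Finset.sum_comm
      _ = ∑ a, ∑ b, ∑ i, ∑ j, T i j a b :=
          Finset.sum_congr rfl fun a _ => Finset.sum_comm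
  rw [sw]
  refine Finset.sum_congr rfl fun a _ => Finset.sum_congr rfl fun b _ =>
    Finset.sum_congr rfl fun i _ => Finset.sum_congr rfl fun j _ => ?_
  rw [h4]
  ring

end Vale.Agent.P088.HY.H16
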