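import Vale.Agent.P088.R2.H16.Fub

/-!
# P088, two metrics near the flat one: geometry near the diagonal, basic facts for row CO2
-/

open MeasureTheory Set
open scoped ContDiff Matrix

noncomputable section

namespace Vale.Agent.P088.HY.H16

open Vale.Agent.P088.LR Vale.Agent.P088.HY

variable {n : ℕ}

theorem sq_nonneg' (x : V n) : 0 ≤ sq x := Finset.sum_nonneg fun _ _ => sq_nonneg _

theorem sq_near {p x : V n} {r : ℝ} (hp : p ∈ Bs n (1 / 2)) (hr : 0 < r)
    (hnr : n * r ^ 2 ≤ 1 / 8) (hx : dist x p < r) : sq x < 3 / 4 := by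
  have hp' : sq p < 1 / 4 := by
    have : sq p < (1 / 2 : ℝ) ^ 2 := hp
    norm_num at this ⊢
    exact this
  have h1 : sq x ≤ 2 * sq p + 2 * (n * r ^ 2) := by
    unfold sq
    rw [Finset.mul_sum]
    have : (n : ℝ) * r ^ 2 = ∑ _j : Fin n, r ^ 2 := by simp
    rw [this, Finset.mul_sum, ← Finset.sum_add_distrib]
    refine Finset.sum_le_sum fun j _ => ?_
    have hj : |x j - p j| ≤ r := by
      have := (dist_le_pi_dist x p j).trans hx.le
      rwa [Real.dist_eq] at this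
    have hj2 : (x j - p j) ^ 2 ≤ r ^ 2 := by
      rw [← sq_abs]
      exact pow_le_pow_left₀ (abs_nonneg _) hj 2
    nlinarith [sq_nonneg (x j - 2 * p j)]
  linarith

theorem sq_sub_near {p x y : V n} {r : ℝ} (hx : dist x p < r) (hy : dist y p < r) :
    sq (x - y) ≤ 4 * (n * r ^ 2) := by
  unfold sq
  have : 4 * ((n : ℝ) * r ^ 2) = ∑ _j : Fin n, 4 * r ^ 2 := by simp; ring
  rw [this]
  refine Finset.sum_le_sum fun j _ => ?_
  have hj : |x j - p j| ≤ r := by
    have := (dist_le_pi_dist x p j).trans hx.le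
    rwa [Real.dist_eq] at this
  have hj' : |y j - p j| ≤ r := by
    have := (dist_le_pi_dist y p j).trans hy.le
    rwa [Real.dist_eq] at this
  have h3 : |x j - y j| ≤ 2 * r := by
    have := abs_sub_le (x j) (p j) (y j)
    rw [abs_sub_comm (p j) (y j)] at this
    linarith
  have h4 : (x j - y j) ^ 2 ≤ (2 * r) ^ 2 := by
    rw [← sq_abs]
    exact pow_le_pow_left₀ (abs_nonneg _) h3 2
  simp only [Pi.sub_apply]
  nlinarith

/-- The weight. -/
def wgt (τ : ℝ) (z : VV n) : ℝ := Real.exp (-(2 * τ * (uu z - 1))) / (rr z.1 * rr z.2) ^ 2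

theorem wgt_nonneg (τ : ℝ) (z : VV n) : 0 ≤ wgt τ z := by
  unfold wgt; positivity

theorem wgt_lower {τ : ℝ} (hτ : 0 < τ) (hτn : 32 * n ≤ τ) {p : V n} (hp : p ∈ Bs n (1 / 2))
    {z : VV n} (hz : z ∈ Metric.ball (p, p) (2 / √τ)) :
    Real.exp (-(1024 * n)) ≤ wgt τ z := by
  have hs : 0 < √τ := Real.sqrt_pos.2 hτ
  have hr : 0 < 2 / √τ := by positivity
  have hr2 : (2 / √τ) ^ 2 = 4 / τ := by
    rw [div_pow, Real.sq_sqrt hτ.le]; norm_num
  have hnr : (n : ℝ) * (2 / √τ) ^ 2 ≤ 1 / 8 := by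
    rw [hr2, ← mul_div_assoc, div_le_iff₀ hτ]; linarith
  obtain ⟨hz1, hz2⟩ := mem_ball_pp.1 hz
  have h1 := sq_near hp hr hnr hz1
  have h2 := sq_near hp hr hnr hz2
  have h3 : sq (z.1 - z.2) ≤ 4 * (n * (2 / √τ) ^ 2) := sq_sub_near hz1 hz2
  rw [hr2] at h3
  have r1 : 1 / 8 < rr z.1 := by unfold rr; linarith
  have r2 : 1 / 8 < rr z.2 := by unfold rr; linarith
  have r1' : rr z.1 ≤ 1 / 2 := by unfold rr; have := sq_nonneg' z.1; linarith
  have r2' : rr z.2 ≤ 1 / 2 := by unfold rr; have := sq_nonneg' z.2; linarith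
  have r12 : 1 / 64 < rr z.1 * rr z.2 := by nlinarith
  have r12' : rr z.1 * rr z.2 ≤ 1 := by nlinarith
  have hu : 2 * τ * (uu z - 1) ≤ 1024 * n := by
    have e : uu z - 1 = sq (z.1 - z.2) / (2 * (rr z.1 * rr z.2)) := by
      unfold uu; ring
    rw [e]
    have hle : sq (z.1 - z.2) / (2 * (rr z.1 * rr z.2)) ≤ (4 * (n * (4 / τ))) / (2 * (1 / 64)) := by
      apply div_le_div₀ (by positivity) h3 (by norm_num)
      linarith
    calc 2 * τ * (sq (z.1 - z.2) / (2 * (rr z.1 * rr z.2)))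
        ≤ 2 * τ * ((4 * (n * (4 / τ))) / (2 * (1 / 64))) :=
          mul_le_mul_of_nonneg_left hle (by positivity)
      _ = 1024 * n := by field_simp; ring
  unfold wgt
  rw [le_div_iff₀ (by positivity)]
  calc Real.exp (-(1024 * n)) * (rr z.1 * rr z.2) ^ 2
      ≤ Real.exp (-(1024 * n)) * 1 := by
        apply mul_le_mul_of_nonneg_left _ (Real.exp_pos _).le
        exact pow_le_one₀ (by positivity) r12'
    _ ≤ Real.exp (-(2 * τ * (uu z - 1))) := by
        rw [mul_one]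
        exact Real.exp_le_exp.2 (by linarith)

theorem Bs_subset_Bn : Bs n (1 / 2) ⊆ Bn n := by
  intro x hx
  have : sq x < (1 / 2 : ℝ) ^ 2 := hx
  show sq x < 1
  linarith [show (1 / 2 : ℝ) ^ 2 = 1 / 4 by norm_num]

theorem pp_mem {p : V n} (hp : p ∈ Bs n (1 / 2)) : ((p, p) : VV n) ∈ Un n :=
  ⟨Bs_subset_Bn hp, Bs_subset_Bn hp⟩

/-- The closed ball. -/
def Bc (n : ℕ) : Set (V n) := {x | sq x ≤ 1 / 4}

theorem Bs_subset_Bc : Bs n (1 / 2) ⊆ Bc n := by
  intro x hx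
  have : sq x < (1 / 2 : ℝ) ^ 2 := hx
  show sq x ≤ 1 / 4
  linarith [show (1 / 2 : ℝ) ^ 2 = 1 / 4 by norm_num]

theorem isCompact_Bc : IsCompact (Bc n) := by
  refine Metric.isCompact_of_isClosed_isBounded (isClosed_le continuous_sq continuous_const) ?_
  refine (Metric.isBounded_closedBall (x := (0 : V n)) (r := 1)).subset fun x hx => ?_
  rw [mem_closedBall_zero_iff, pi_norm_le_iff_of_nonneg zero_le_one]
  intro j
  have h1 : x j ^ 2 ≤ sq x :=
    Finset.single_le_sum (f := fun j => x j ^ 2) (fun _ _ => sq_nonneg _) (Finset.mem_univ j)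
  have h2 : sq x ≤ 1 / 4 := hx
  rw [Real.norm_eq_abs]
  exact abs_le_one_iff_mul_self_le_one.2 (by nlinarith)

theorem Bc_subset_Bn : Bc n ⊆ Bn n := by
  intro x hx
  have h2 : sq x ≤ 1 / 4 := hx
  show sq x < 1
  linarith

theorem vol_Bs_lt : volume (Bs n (1 / 2)) < ⊤ :=
  (measure_mono Bs_subset_Bc).trans_lt isCompact_Bc.measure_lt_top

/-- Functions continuous on the closed ball are integrable on the ball. -/
theorem integrableOn_Bs {f : V n → ℝ} (hf : ContinuousOn f (Bc n)) :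
    IntegrableOn f (Bs n (1 / 2)) :=
  (hf.integrableOn_compact isCompact_Bc).mono_set Bs_subset_Bc

theorem continuousOn_pp {g : VV n → ℝ} (hg : ContinuousOn g (Un n)) :
    ContinuousOn (fun p : V n => g (p, p)) (Bc n) := by
  refine hg.comp (continuous_id.prodMk continuous_id).continuousOn ?_
  intro p hp
  exact ⟨Bc_subset_Bn hp, Bc_subset_Bn hp⟩

theorem Cl_mono {k k' : ℕ} {a a' : ℝ} {f : V n → ℝ} (hk : k' ≤ k) (ha : a ≤ a')
    (h : Cl k a f) : Cl k' a' f := fun l hl x => (h l (hl.trans hk) x).trans ha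

theorem TS_mono {K K' : ℕ} {ε ε' : ℝ} {s : MF n} (hK : K' ≤ K) (hε : ε ≤ ε') (h : TS n K ε s) :
    TS n K' ε' s := ⟨h.sm, h.sy, fun i j => Cl_mono hK hε (h.cl i j), h.dv⟩

theorem Cl_sub {k : ℕ} {a b : ℝ} {f g : V n → ℝ} (hf : ContDiff ℝ ∞ f) (hg : ContDiff ℝ ∞ g)
    (h1 : Cl k a f) (h2 : Cl k b g) : Cl k (a + b) (fun x => f x - g x) := by
  intro l hl x
  have e : iteratedFDeriv ℝ l (fun x => f x - g x) x
      = iteratedFDeriv ℝ l f x - iteratedFDeriv ℝ l g x := by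
    have := iteratedFDeriv_sub_apply (i := l) (x := x) (𝕜 := ℝ) (f := f) (g := g)
      ((hf.of_le (by exact_mod_cast le_top)).contDiffAt)
      ((hg.of_le (by exact_mod_cast le_top)).contDiffAt)
    exact this
  rw [e]
  exact (norm_sub_le _ _).trans (add_le_add (h1 l hl x) (h2 l hl x))

theorem DB_of_TS {K : ℕ} {ε : ℝ} {s₁ s₂ : MF n} (h1 : TS n K ε s₁) (h2 : TS n K ε s₂) :
    DB K (2 * ε) s₁ s₂ := by
  intro i j
  have hc : ContDiff ℝ ∞ (fun _ : V n => (1 : Matrix (Fin n) (Fin n) ℝ) i j) := contDiff_const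
  have h := Cl_sub ((h1.sm i j).sub hc) ((h2.sm i j).sub hc) (h1.cl i j) (h2.cl i j)
  rw [two_mul]
  convert h using 1
  ext x
  ring

end Vale.Agent.P088.HY.H16
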