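import Vale.Agent.P088.R2.H558.Spec
import Vale.Agent.P088.R2.H16.Geo

/-!
# P088, row CO2: rigidity of two divergence free tensors near `1`, from the other rows
-/

open MeasureTheory Set
open scoped ContDiff Matrix

noncomputable section

namespace Vale.Agent.P088.HY.H16

open Vale.Agent.P088.LR Vale.Agent.P088.HY

variable {n : ℕ}

/-- The entries of the difference. -/
def hh (s₁ s₂ : MF n) (i j : Fin n) (x : V n) : ℝ := s₂ x i j - s₁ x i j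

/-- The square of the Hilbert–Schmidt norm of the difference. -/
def hs2 (s₁ s₂ : MF n) (x : V n) : ℝ := ∑ i, ∑ j, (s₂ x i j - s₁ x i j) ^ 2

section data

variable {s₁ s₂ : MF n}

theorem hs2_nonneg (x : V n) : 0 ≤ hs2 s₁ s₂ x :=
  Finset.sum_nonneg fun _ _ => Finset.sum_nonneg fun _ _ => sq_nonneg _

theorem hh_sq_le (i j : Fin n) (x : V n) : (s₂ x i j - s₁ x i j) ^ 2 ≤ hs2 s₁ s₂ x := by
  unfold hs2
  have h1 : (s₂ x i j - s₁ x i j) ^ 2 ≤ ∑ j, (s₂ x i j - s₁ x i j) ^ 2 :=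
    Finset.single_le_sum (f := fun j => (s₂ x i j - s₁ x i j) ^ 2)
      (fun _ _ => sq_nonneg _) (Finset.mem_univ j)
  have h2 : ∑ j, (s₂ x i j - s₁ x i j) ^ 2 ≤ ∑ i, ∑ j, (s₂ x i j - s₁ x i j) ^ 2 :=
    Finset.single_le_sum (f := fun i => ∑ j, (s₂ x i j - s₁ x i j) ^ 2)
      (fun _ _ => Finset.sum_nonneg fun _ _ => sq_nonneg _) (Finset.mem_univ i)
  exact h1.trans h2

theorem cont_hh (h1 : SmM s₁) (h2 : SmM s₂) (i j : Fin n) :
    Continuous (fun x => s₂ x i j - s₁ x i j) := (h2 i j).continuous.sub (h1 i j).continuous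

theorem cont_hs2 (h1 : SmM s₁) (h2 : SmM s₂) : Continuous (hs2 s₁ s₂) := by
  unfold hs2
  exact continuous_finsetSum _ fun i _ => continuous_finsetSum _ fun j _ =>
    (cont_hh h1 h2 i j).pow 2

theorem hcs_of_off {f : V n → ℝ} (hf : ∀ x ∉ Bs n (1 / 2), f x = 0) : HasCompactSupport f :=
  HasCompactSupport.intro isCompact_Bc fun x hx => hf x fun h => hx (Bs_subset_Bc h)

theorem int_hs2 (h1 : SmM s₁) (h2 : SmM s₂) (hoff : ∀ x ∉ Bs n (1 / 2), s₂ x = s₁ x) :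
    Integrable (hs2 s₁ s₂) := by
  refine (cont_hs2 h1 h2).integrable_of_hasCompactSupport (hcs_of_off fun x hx => ?_)
  unfold hs2
  simp [hoff x hx]

theorem int_hh (h1 : SmM s₁) (h2 : SmM s₂) (hoff : ∀ x ∉ Bs n (1 / 2), s₂ x = s₁ x)
    (i j : Fin n) : Integrable (fun x => (s₂ x i j - s₁ x i j) ^ 2) := by
  refine ((cont_hh h1 h2 i j).pow 2).integrable_of_hasCompactSupport
    (hcs_of_off fun x hx => ?_)
  simp [hoff x hx]

theorem int_hh_le (h1 : SmM s₁) (h2 : SmM s₂) (hoff : ∀ x ∉ Bs n (1 / 2), s₂ x = s₁ x)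
    (i j : Fin n) : ∫ x, (s₂ x i j - s₁ x i j) ^ 2 ≤ ∫ x, hs2 s₁ s₂ x :=
  integral_mono (int_hh h1 h2 hoff i j) (int_hs2 h1 h2 hoff) fun x => hh_sq_le i j x

theorem int_hs2_pos (h1 : SmM s₁) (h2 : SmM s₂) (hoff : ∀ x ∉ Bs n (1 / 2), s₂ x = s₁ x)
    (hne : ¬ ∀ x, s₂ x = s₁ x) : 0 < ∫ x, hs2 s₁ s₂ x := by
  push Not at hne
  obtain ⟨x₀, hx₀⟩ := hne
  have hx1 : ∃ i j, s₂ x₀ i j - s₁ x₀ i j ≠ 0 := by
    by_contra hcon
    push Not at hcon
    apply hx₀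
    ext i j
    linarith [hcon i j]
  obtain ⟨i, j, hij⟩ := hx1
  refine (cont_hs2 h1 h2).integral_pos_of_hasCompactSupport_nonneg_nonzero ?_ hs2_nonneg
    (x := x₀) ?_
  · refine hcs_of_off fun x hx => ?_
    unfold hs2
    simp [hoff x hx]
  · have h3 := hh_sq_le (s₁ := s₁) (s₂ := s₂) i j x₀
    have h4 : 0 < (s₂ x₀ i j - s₁ x₀ i j) ^ 2 := by positivity
    linarith

theorem int_hs2_eq (hoff : ∀ x ∉ Bs n (1 / 2), s₂ x = s₁ x) :
    ∫ x in Bs n (1 / 2), hs2 s₁ s₂ x = ∫ x, hs2 s₁ s₂ x := by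
  refine setIntegral_eq_integral_of_forall_compl_eq_zero fun x hx => ?_
  unfold hs2
  simp [hoff x hx]

theorem int_hs2_le {b : ℝ} (hb : 0 ≤ b) (hoff : ∀ x ∉ Bs n (1 / 2), s₂ x = s₁ x)
    (hB : ∀ i j x, |s₂ x i j - s₁ x i j| ≤ b) :
    ∫ x, hs2 s₁ s₂ x ≤ n ^ 2 * volume.real (Bs n (1 / 2)) * b ^ 2 := by
  rw [← int_hs2_eq hoff]
  have h1 : ∀ x ∈ Bs n (1 / 2), ‖hs2 s₁ s₂ x‖ ≤ n ^ 2 * b ^ 2 := by
    intro x _
    rw [Real.norm_of_nonneg (hs2_nonneg x)]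
    unfold hs2
    calc ∑ i, ∑ j, (s₂ x i j - s₁ x i j) ^ 2 ≤ ∑ _i : Fin n, ∑ _j : Fin n, b ^ 2 := by
          refine Finset.sum_le_sum fun i _ => Finset.sum_le_sum fun j _ => ?_
          rw [← sq_abs]
          exact pow_le_pow_left₀ (abs_nonneg _) (hB i j x) 2
      _ = n ^ 2 * b ^ 2 := by simp; ring
  have h2 := norm_setIntegral_le_of_norm_le_const vol_Bs_lt h1
  rw [Real.norm_of_nonneg (setIntegral_nonneg (isOpen_Bs _).measurableSet
    fun x _ => hs2_nonneg x)] at h2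
  calc _ ≤ _ := h2
    _ = _ := by ring

end data

/-- The pairing with the mixed derivatives on the diagonal. -/
def pr (s₁ s₂ : MF n) (f : VV n → ℝ) (p : V n) : ℝ :=
  ∑ i, ∑ j, (s₂ p i j - s₁ p i j) * dx i (dy j f) (p, p)

theorem pr_cont {s₁ s₂ : MF n} (h1 : SmM s₁) (h2 : SmM s₂) {f : VV n → ℝ}
    (hf : ContDiffOn ℝ ∞ f (Un n)) : ContinuousOn (pr s₁ s₂ f) (Bc n) := by
  unfold pr
  refine continuousOn_finsetSum _ fun i _ => continuousOn_finsetSum _ fun j _ => ?_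
  refine (cont_hh h1 h2 i j).continuousOn.mul ?_
  rw [dx_eq, dy_eq]
  exact continuousOn_pp (contDiffOn_dd isOpen_Un _ (contDiffOn_dd isOpen_Un _ hf)).continuousOn

theorem pr_sub {s₁ s₂ : MF n} {f g : VV n → ℝ} (hf : ContDiffOn ℝ ∞ f (Un n))
    (hg : ContDiffOn ℝ ∞ g (Un n)) {p : V n} (hp : p ∈ Bs n (1 / 2)) :
    pr s₁ s₂ (fun z => f z - g z) p = pr s₁ s₂ f p - pr s₁ s₂ g p := by
  unfold pr
  simp only [← Finset.sum_sub_distrib, ← mul_sub]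
  refine Finset.sum_congr rfl fun i _ => Finset.sum_congr rfl fun j _ => ?_
  simp only [dx_eq, dy_eq]
  rw [dd_congr isOpen_Un (ex i) (dd_sub isOpen_Un (ey j) hf hg) _ (pp_mem hp),
    dd_sub isOpen_Un _ (contDiffOn_dd isOpen_Un _ hf) (contDiffOn_dd isOpen_Un _ hg) _ (pp_mem hp)]

theorem young {h D a C : ℝ} (hC : 0 < C) (hD : |D| ≤ a) :
    h * D ≤ h ^ 2 / (2 * C) + C * a ^ 2 / 2 := by
  have ha : 0 ≤ a := (abs_nonneg D).trans hD
  have h1 : h * D ≤ |h| * a := by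
    calc h * D ≤ |h * D| := le_abs_self _
      _ = |h| * |D| := abs_mul _ _
      _ ≤ |h| * a := mul_le_mul_of_nonneg_left hD (abs_nonneg _)
  have h2 : |h| * a ≤ h ^ 2 / (2 * C) + C * a ^ 2 / 2 := by
    rw [← sq_abs h]
    have e : |h| ^ 2 / (2 * C) + C * a ^ 2 / 2 - |h| * a = (|h| - C * a) ^ 2 / (2 * C) := by
      field_simp
      ring
    have : 0 ≤ (|h| - C * a) ^ 2 / (2 * C) := by positivity
    linarith
  exact h1.trans h2

/-- The estimate of the pairing. -/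
theorem pair_est {s₁ s₂ : MF n} (h1 : SmM s₁) (h2 : SmM s₂) {w : VV n → ℝ}
    (hw : ContDiffOn ℝ ∞ w (Un n)) {τ : ℝ} (hτ : 1 ≤ τ) (hτn : 32 * n ≤ τ)
    (hwI : IntegrableOn (fun z => w z ^ 2 * Real.exp (-(2 * τ * (uu z - 1)))
      / (rr z.1 * rr z.2) ^ 2) (Un n))
    (hsub : ∀ p ∈ Bs n (1 / 2), Metric.ball (p, p) (2 / √τ) ⊆ Un n) {CI M C : ℝ} (hCI : 0 < CI)
    (hM : 0 ≤ M) (hC : 0 < C)
    (hD : ∀ p ∈ Bs n (1 / 2), ∀ i j, |dx i (dy j w) (p, p)| ≤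
      CI * (√τ ^ (n + 2) * √(∫ z in Metric.ball (p, p) (2 / √τ), w z ^ 2) + M)) :
    ∫ p in Bs n (1 / 2), pr s₁ s₂ w p ≤
      (∫ p in Bs n (1 / 2), hs2 s₁ s₂ p) / (2 * C) + n ^ 2 * C * CI ^ 2 *
        (4 ^ n * Real.exp (1024 * n) * √τ ^ (n + 4) *
          (∫ z in Un n, w z ^ 2 * Real.exp (-(2 * τ * (uu z - 1)))
          / (rr z.1 * rr z.2) ^ 2) + M ^ 2 * volume.real (Bs n (1 / 2))) := by
  have hτ0 : 0 < τ := by linarith
  have hs : 0 < √τ := Real.sqrt_pos.2 hτ0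
  set E : ℝ := Real.exp (1024 * n) with hE
  have hE0 : 0 < E := Real.exp_pos _
  set J : ℝ := ∫ z in Un n, w z ^ 2 * Real.exp (-(2 * τ * (uu z - 1)))
          / (rr z.1 * rr z.2) ^ 2 with hJ
  set g : V n → ℝ := fun p => ∫ z in Metric.ball (p, p) (2 / √τ), w z ^ 2 with hg
  -- Fubini
  obtain ⟨hgI, hgJ⟩ := fub (n := n) (2 / √τ) (by positivity) (Bs n (1 / 2))
    (isOpen_Bs _).measurableSet vol_Bs_lt (Un n) isOpen_Un.measurableSet (fun z => w z ^ 2)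
    (fun z => E * (w z ^ 2 * Real.exp (-(2 * τ * (uu z - 1))) / (rr z.1 * rr z.2) ^ 2))
    ((hw.continuousOn.pow 2).aestronglyMeasurable isOpen_Un.measurableSet)
    (fun z => sq_nonneg _) hsub (hwI.const_mul E) (fun z _ => by positivity) (by
      intro p hp z hz
      have hl := wgt_lower hτ0 hτn hp hz
      have e1 : E * (w z ^ 2 * Real.exp (-(2 * τ * (uu z - 1))) / (rr z.1 * rr z.2) ^ 2)
          = w z ^ 2 * (E * wgt τ z) := by unfold wgt; ring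
      rw [e1]
      have e2 : 1 ≤ E * wgt τ z := by
        calc (1 : ℝ) = E * Real.exp (-(1024 * n)) := by
              rw [hE, ← Real.exp_add]; simp
          _ ≤ E * wgt τ z := mul_le_mul_of_nonneg_left hl hE0.le
      nlinarith [sq_nonneg (w z)])
  have hg0 : ∀ p, 0 ≤ g p := fun p => integral_nonneg fun z => sq_nonneg _
  -- pointwise
  have hpt : ∀ p ∈ Bs n (1 / 2), pr s₁ s₂ w p ≤ (1 / (2 * C)) * hs2 s₁ s₂ p +
      n ^ 2 * C * CI ^ 2 * ((√τ ^ (n + 2)) ^ 2 * g p + M ^ 2) := by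
    intro p hp
    have key : ∀ i j, (s₂ p i j - s₁ p i j) * dx i (dy j w) (p, p) ≤
        (1 / (2 * C)) * (s₂ p i j - s₁ p i j) ^ 2 +
          C * CI ^ 2 * ((√τ ^ (n + 2)) ^ 2 * g p + M ^ 2) := by
      intro i j
      have hy := young (h := s₂ p i j - s₁ p i j) hC (hD p hp i j)
      have hsq : (CI * (√τ ^ (n + 2) * √(g p) + M)) ^ 2 ≤
          2 * CI ^ 2 * ((√τ ^ (n + 2)) ^ 2 * g p + M ^ 2) := by
        have e1 : √(g p) ^ 2 = g p := Real.sq_sqrt (hg0 p)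
        have e2 : (√τ ^ (n + 2) * √(g p) + M) ^ 2 ≤
            2 * ((√τ ^ (n + 2) * √(g p)) ^ 2 + M ^ 2) := by
          nlinarith [sq_nonneg (√τ ^ (n + 2) * √(g p) - M)]
        rw [mul_pow (√τ ^ (n + 2)), e1] at e2
        calc (CI * (√τ ^ (n + 2) * √(g p) + M)) ^ 2
            = CI ^ 2 * (√τ ^ (n + 2) * √(g p) + M) ^ 2 := by ring
          _ ≤ CI ^ 2 * (2 * ((√τ ^ (n + 2)) ^ 2 * g p + M ^ 2)) :=
            mul_le_mul_of_nonneg_left e2 (sq_nonneg _)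
          _ = _ := by ring
      calc _ ≤ _ := hy
        _ ≤ (s₂ p i j - s₁ p i j) ^ 2 / (2 * C)
            + C * (2 * CI ^ 2 * ((√τ ^ (n + 2)) ^ 2 * g p + M ^ 2)) / 2 := by
          have := mul_le_mul_of_nonneg_left hsq hC.le
          linarith
        _ = _ := by ring
    unfold pr hs2
    calc ∑ i, ∑ j, (s₂ p i j - s₁ p i j) * dx i (dy j w) (p, p)
        ≤ ∑ i : Fin n, ∑ j : Fin n, ((1 / (2 * C)) * (s₂ p i j - s₁ p i j) ^ 2 +
          C * CI ^ 2 * ((√τ ^ (n + 2)) ^ 2 * g p + M ^ 2)) :=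
          Finset.sum_le_sum fun i _ => Finset.sum_le_sum fun j _ => key i j
      _ = _ := by
          simp only [Finset.sum_add_distrib, ← Finset.mul_sum, Finset.sum_const,
            Finset.card_univ, Fintype.card_fin, nsmul_eq_mul]
          ring
  have hI1 : IntegrableOn (pr s₁ s₂ w) (Bs n (1 / 2)) := integrableOn_Bs (pr_cont h1 h2 hw)
  have hI2 : IntegrableOn (hs2 s₁ s₂) (Bs n (1 / 2)) :=
    integrableOn_Bs (cont_hs2 h1 h2).continuousOn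
  have hI3 : IntegrableOn (fun p => (√τ ^ (n + 2)) ^ 2 * g p + M ^ 2) (Bs n (1 / 2)) :=
    (hgI.const_mul _).add (integrableOn_const vol_Bs_lt.ne)
  have hint : ∫ p in Bs n (1 / 2), pr s₁ s₂ w p ≤ ∫ p in Bs n (1 / 2),
      ((1 / (2 * C)) * hs2 s₁ s₂ p + n ^ 2 * C * CI ^ 2 * ((√τ ^ (n + 2)) ^ 2 * g p + M ^ 2)) :=
    setIntegral_mono_on hI1 ((hI2.const_mul _).add (hI3.const_mul _))
      (isOpen_Bs _).measurableSet hpt
  have hsum : ∫ p in Bs n (1 / 2),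
      ((1 / (2 * C)) * hs2 s₁ s₂ p + n ^ 2 * C * CI ^ 2 * ((√τ ^ (n + 2)) ^ 2 * g p + M ^ 2))
      = (1 / (2 * C)) * (∫ p in Bs n (1 / 2), hs2 s₁ s₂ p) + n ^ 2 * C * CI ^ 2 *
        ((√τ ^ (n + 2)) ^ 2 * (∫ p in Bs n (1 / 2), g p) + M ^ 2 * volume.real (Bs n (1 / 2))) := by
    rw [integral_add (hI2.const_mul _) (hI3.const_mul _), integral_const_mul, integral_const_mul]
    congr 2
    rw [integral_add (hgI.const_mul _) (integrableOn_const vol_Bs_lt.ne), integral_const_mul]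
    congr 1
    simp [Measure.real, mul_comm]
  rw [hsum] at hint
  have hgJ' : ∫ p in Bs n (1 / 2), g p ≤ (4 / √τ) ^ n * (E * J) := by
    rw [integral_const_mul] at hgJ
    have e4 : 2 * (2 / √τ) = 4 / √τ := by ring
    rw [e4] at hgJ
    exact hgJ
  have hfin : (√τ ^ (n + 2)) ^ 2 * (∫ p in Bs n (1 / 2), g p) ≤ 4 ^ n * E * √τ ^ (n + 4) * J := by
    calc (√τ ^ (n + 2)) ^ 2 * (∫ p in Bs n (1 / 2), g p)
        ≤ (√τ ^ (n + 2)) ^ 2 * ((4 / √τ) ^ n * (E * J)) :=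
          mul_le_mul_of_nonneg_left hgJ' (by positivity)
      _ = 4 ^ n * E * √τ ^ (n + 4) * J := by
          rw [div_pow, ← pow_mul]
          have : √τ ^ ((n + 2) * 2) = √τ ^ (n + 4) * √τ ^ n := by rw [← pow_add]; ring_nf
          rw [this]
          field_simp
  calc _ ≤ _ := hint
    _ ≤ (1 / (2 * C)) * (∫ p in Bs n (1 / 2), hs2 s₁ s₂ p) + n ^ 2 * C * CI ^ 2 *
        (4 ^ n * E * √τ ^ (n + 4) * J + M ^ 2 * volume.real (Bs n (1 / 2))) := by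
      gcongr
    _ = _ := by ring

end Vale.Agent.P088.HY.H16
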