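import Vale.Agent.P088.R2.H558.Est

/-!
# P088, smooth functions on pairs vanishing off a compact set: integrability of the forms
-/

open MeasureTheory Set Filter
open scoped ContDiff Matrix Topology

noncomputable section

namespace Vale.Agent.P088.HY.H16

open Vale.Agent.P088.LR Vale.Agent.P088.HY

variable {n : ℕ}

/-- Smooth on `Un` and zero off `K`. -/
structure CZ (K : Set (VV n)) (f : VV n → ℝ) : Prop where
  su : SU f
  zero : ∀ z ∉ K, f z = 0

section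

variable {K : Set (VV n)} {f g : VV n → ℝ}

theorem CZ.add (hf : CZ K f) (hg : CZ K g) : CZ K (fun z => f z + g z) :=
  ⟨hf.su.add hg.su, fun z hz => by rw [hf.zero z hz, hg.zero z hz, add_zero]⟩

theorem CZ.sub (hf : CZ K f) (hg : CZ K g) : CZ K (fun z => f z - g z) :=
  ⟨hf.su.sub hg.su, fun z hz => by rw [hf.zero z hz, hg.zero z hz, sub_zero]⟩

theorem CZ.mul_left (hf : CZ K f) (hg : SU g) : CZ K (fun z => g z * f z) :=
  ⟨hg.mul hf.su, fun z hz => by rw [hf.zero z hz, mul_zero]⟩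

theorem CZ.mul_right (hf : CZ K f) (hg : SU g) : CZ K (fun z => f z * g z) :=
  ⟨hf.su.mul hg, fun z hz => by rw [hf.zero z hz, zero_mul]⟩

theorem CZ.cmul (hf : CZ K f) (a : ℝ) : CZ K (fun z => a * f z) :=
  hf.mul_left (su_const a)

theorem CZ.sq (hf : CZ K f) : CZ K (fun z => f z ^ 2) :=
  ⟨hf.su.pow 2, fun z hz => by rw [hf.zero z hz]; ring⟩

theorem CZ.sum {ι : Type} (t : Finset ι) {F : ι → VV n → ℝ} (h : ∀ i ∈ t, CZ K (F i)) :
    CZ K (fun z => ∑ i ∈ t, F i z) :=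
  ⟨ContDiffOn.sum fun i hi => (h i hi).su, fun z hz => Finset.sum_eq_zero fun i hi =>
    (h i hi).zero z hz⟩

theorem CZ.dd (hK : IsClosed K) (hf : CZ K f) (e : VV n) : CZ K (dd e f) := by
  refine ⟨SO.dd isOpen_Un hf.su e, fun z hz => ?_⟩
  have h : f =ᶠ[𝓝 z] fun _ => (0 : ℝ) := by
    filter_upwards [hK.isOpen_compl.mem_nhds hz] with w hw using hf.zero w hw
  rw [dd_congr h, dd_const]

theorem CZ.Ax (hK : IsClosed K) (hf : CZ K f) (i : Fin n) : CZ K (Ax i f) := by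
  have h := (hf.dd hK (Pi.single i 1, 0)).mul_left su_r1
  exact h

theorem CZ.By (hK : IsClosed K) (hf : CZ K f) (i : Fin n) : CZ K (By i f) := by
  have h := (hf.dd hK (0, Pi.single i 1)).mul_left su_r2
  exact h

theorem su_th : SU (th : VV n → ℝ) := by
  have h : SU (fun z : VV n => r1 z * r2 z) := su_r1.mul su_r2
  exact (h.pow n).inv fun z hz => (pow_pos (mul_pos (r1_pos hz) (r2_pos hz)) n).ne'

theorem th_nonneg {z : VV n} (hz : z ∈ Un n) : 0 ≤ th z :=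
  inv_nonneg.2 (pow_nonneg (mul_pos (r1_pos hz) (r2_pos hz)).le _)

theorem CZ.int (hK : IsCompact K) (hKU : K ⊆ Un n) (hf : CZ K f) :
    IntegrableOn (fun z => th z * f z) (Un n) := by
  have hc : ContinuousOn (fun z => th z * f z) K :=
    (su_th.mul hf.su).continuousOn.mono hKU
  have h1 : IntegrableOn (fun z => th z * f z) K := hc.integrableOn_compact hK
  refine h1.of_forall_sdiff_eq_zero isOpen_Un.measurableSet fun z hz => ?_
  rw [hf.zero z hz.2, mul_zero]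

end

/-! ### `EE` on such functions -/

section EE

variable {K : Set (VV n)} {f g : VV n → ℝ}

theorem EE_add (hK : IsCompact K) (hKU : K ⊆ Un n) (hf : CZ K f) (hg : CZ K g) :
    EE (fun z => f z + g z) = EE f + EE g := by
  unfold EE
  rw [← integral_add (hf.int hK hKU) (hg.int hK hKU)]
  congr 1
  ext z
  ring

theorem EE_sub (hK : IsCompact K) (hKU : K ⊆ Un n) (hf : CZ K f) (hg : CZ K g) :
    EE (fun z => f z - g z) = EE f - EE g := by
  unfold EE
  rw [← integral_sub (hf.int hK hKU) (hg.int hK hKU)]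
  congr 1
  ext z
  ring

theorem EE_cmul (a : ℝ) (f : VV n → ℝ) : EE (fun z => a * f z) = a * EE f := by
  unfold EE
  rw [← integral_const_mul]
  congr 1
  ext z
  ring

theorem EE_mono (hK : IsCompact K) (hKU : K ⊆ Un n) (hf : CZ K f) (hg : CZ K g)
    (h : ∀ z ∈ Un n, f z ≤ g z) : EE f ≤ EE g := by
  unfold EE
  exact setIntegral_mono_on (hf.int hK hKU) (hg.int hK hKU) isOpen_Un.measurableSet
    fun z hz => mul_le_mul_of_nonneg_left (h z hz) (th_nonneg hz)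

theorem EE_nonneg (h : ∀ z ∈ Un n, 0 ≤ f z) : 0 ≤ EE f :=
  setIntegral_nonneg isOpen_Un.measurableSet fun z hz => mul_nonneg (th_nonneg hz) (h z hz)

end EE

/-! ### Smoothness of the coefficients -/

theorem su_s1 {s : MF n} (hs : SmM s) (i j : Fin n) : SU (fun z : VV n => s z.1 i j) :=
  ((hs i j).comp contDiff_fst).contDiffOn

theorem su_s2 {s : MF n} (hs : SmM s) (i j : Fin n) : SU (fun z : VV n => s z.2 i j) :=
  ((hs i j).comp contDiff_snd).contDiffOn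

theorem su_vx {s : MF n} (hs : SmM s) : SU (vx s) := by
  unfold vx vp
  refine ContDiffOn.add ?_ ?_
  · exact (contDiffOn_const.mul su_r1).mul (ContDiffOn.sum fun i _ => su_s1 hs i i)
  · refine contDiffOn_const.mul (ContDiffOn.sum fun i _ => ContDiffOn.sum fun j _ => ?_)
    exact ((su_s1 hs i j).mul (su_x i)).mul (su_x j)

theorem su_vy {s : MF n} (hs : SmM s) : SU (vy s) := by
  unfold vy vp
  refine ContDiffOn.add ?_ ?_
  · exact (contDiffOn_const.mul su_r2).mul (ContDiffOn.sum fun i _ => su_s2 hs i i)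
  · refine contDiffOn_const.mul (ContDiffOn.sum fun i _ => ContDiffOn.sum fun j _ => ?_)
    exact ((su_s2 hs i j).mul (su_y i)).mul (su_y j)

theorem su_L0x {s : MF n} (hs : SmM s) {f : VV n → ℝ} (hf : SU f) : SU (L0x s f) := by
  unfold L0x
  refine ContDiffOn.sum fun i _ => ContDiffOn.sum fun j _ => ?_
  exact (su_s1 hs i j).mul ((su_Ax (su_Ax hf j) i).add
    ((contDiffOn_const.mul (su_x i)).mul (su_Ax hf j)))

theorem su_L0y {s : MF n} (hs : SmM s) {f : VV n → ℝ} (hf : SU f) : SU (L0y s f) := by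
  unfold L0y
  refine ContDiffOn.sum fun i _ => ContDiffOn.sum fun j _ => ?_
  exact (su_s2 hs i j).mul ((su_By (su_By hf j) i).add
    ((contDiffOn_const.mul (su_y i)).mul (su_By hf j)))

theorem su_Dxs {s : MF n} (hs : SmM s) {f : VV n → ℝ} (hf : SU f) : SU (Dxs s f) :=
  (su_L0x hs hf).add ((su_vx hs).mul hf)

theorem su_Dys {s : MF n} (hs : SmM s) {f : VV n → ℝ} (hf : SU f) : SU (Dys s f) :=
  (su_L0y hs hf).add ((su_vy hs).mul hf)

theorem su_kax {s : MF n} (hs : SmM s) : SU (kax s) :=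
  (su_Dxs hs su_uu).sub ((su_vx hs).mul su_uu)

theorem su_kay {s : MF n} (hs : SmM s) : SU (kay s) :=
  (su_Dys hs su_uu).sub ((su_vy hs).mul su_uu)

theorem su_Fxs {s : MF n} (hs : SmM s) : SU (Fxs s) := by
  unfold Fxs
  refine ContDiffOn.sum fun i _ => ContDiffOn.sum fun j _ => ?_
  exact ((su_s1 hs i j).mul (su_al i)).mul (su_al j)

theorem su_Fys {s : MF n} (hs : SmM s) : SU (Fys s) := by
  unfold Fys
  refine ContDiffOn.sum fun i _ => ContDiffOn.sum fun j _ => ?_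
  exact ((su_s2 hs i j).mul (su_be i)).mul (su_be j)

theorem su_Gax {s : MF n} (hs : SmM s) {f g : VV n → ℝ} (hf : SU f) (hg : SU g) :
    SU (Gax s f g) := by
  unfold Gax
  refine ContDiffOn.sum fun i _ => ContDiffOn.sum fun j _ => ?_
  exact ((su_s1 hs i j).mul (su_Ax hf i)).mul (su_Ax hg j)

theorem su_Gay {s : MF n} (hs : SmM s) {f g : VV n → ℝ} (hf : SU f) (hg : SU g) :
    SU (Gay s f g) := by
  unfold Gay
  refine ContDiffOn.sum fun i _ => ContDiffOn.sum fun j _ => ?_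
  exact ((su_s2 hs i j).mul (su_By hf i)).mul (su_By hg j)

theorem su_ps : SU (ps : VV n → ℝ) :=
  su_uu.sub (su_uu.inv fun _ hz => (lt_of_lt_of_le one_pos (one_le_uu hz)).ne')

theorem one_le_inv_uu {z : VV n} (hz : z ∈ Un n) : (uu z)⁻¹ ≤ 1 :=
  inv_le_one_of_one_le₀ (one_le_uu hz)

theorem ps_nonneg {z : VV n} (hz : z ∈ Un n) : 0 ≤ ps z := by
  unfold ps
  have h1 := one_le_uu hz
  have h2 := one_le_inv_uu hz
  linarith

/-! ### The forms -/

section forms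

variable {K : Set (VV n)} {f g : VV n → ℝ} {s s₁ s₂ : MF n}

theorem CZ.L0x (hK : IsClosed K) (hs : SmM s) (hf : CZ K f) : CZ K (L0x s f) := by
  unfold HY.L0x
  refine CZ.sum _ fun i _ => CZ.sum _ fun j _ => ?_
  exact (((hf.Ax hK j).Ax hK i).add
    ((hf.Ax hK j).mul_left (contDiffOn_const.mul (su_x i)))).mul_left (su_s1 hs i j)

theorem CZ.L0y (hK : IsClosed K) (hs : SmM s) (hf : CZ K f) : CZ K (L0y s f) := by
  unfold HY.L0y
  refine CZ.sum _ fun i _ => CZ.sum _ fun j _ => ?_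
  exact (((hf.By hK j).By hK i).add
    ((hf.By hK j).mul_left (contDiffOn_const.mul (su_y i)))).mul_left (su_s2 hs i j)

theorem CZ.Dxs (hK : IsClosed K) (hs : SmM s) (hf : CZ K f) : CZ K (Dxs s f) :=
  (hf.L0x hK hs).add (hf.mul_left (su_vx hs))

theorem CZ.Dys (hK : IsClosed K) (hs : SmM s) (hf : CZ K f) : CZ K (Dys s f) :=
  (hf.L0y hK hs).add (hf.mul_left (su_vy hs))

theorem CZ.Kxs (hK : IsClosed K) (hs : SmM s) (hf : CZ K f) : CZ K (Kxs s f) := by
  unfold HY.Kxs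
  refine CZ.add (CZ.cmul (CZ.sum _ fun i _ => CZ.sum _ fun j _ => ?_) 2) (hf.mul_left (su_kax hs))
  exact (hf.Ax hK j).mul_left ((su_s1 hs i j).mul (su_al i))

theorem CZ.Kys (hK : IsClosed K) (hs : SmM s) (hf : CZ K f) : CZ K (Kys s f) := by
  unfold HY.Kys
  refine CZ.add (CZ.cmul (CZ.sum _ fun i _ => CZ.sum _ fun j _ => ?_) 2) (hf.mul_left (su_kay hs))
  exact (hf.By hK j).mul_left ((su_s2 hs i j).mul (su_be i))

theorem CZ.Px (hK : IsClosed K) (hs : SmM s) (τ : ℝ) (hf : CZ K f) : CZ K (Px s τ f) := by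
  unfold HY.Px
  exact ((hf.Dxs hK hs).add ((hf.Kxs hK hs).cmul τ)).add
    (hf.mul_left (contDiffOn_const.mul (su_Fxs hs)))

theorem CZ.Py (hK : IsClosed K) (hs : SmM s) (τ : ℝ) (hf : CZ K f) : CZ K (Py s τ f) := by
  unfold HY.Py
  exact ((hf.Dys hK hs).add ((hf.Kys hK hs).cmul τ)).add
    (hf.mul_left (contDiffOn_const.mul (su_Fys hs)))

theorem CZ.Gax (hK : IsClosed K) (hs : SmM s) (hf : CZ K f) (hg : SU g) : CZ K (Gax s f g) := by
  unfold HY.Gax
  refine CZ.sum _ fun i _ => CZ.sum _ fun j _ => ?_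
  exact ((hf.Ax hK i).mul_left (su_s1 hs i j)).mul_right (su_Ax hg j)

theorem CZ.Gax' (hK : IsClosed K) (hs : SmM s) (hf : SU f) (hg : CZ K g) : CZ K (HY.Gax s f g) := by
  unfold HY.Gax
  refine CZ.sum _ fun i _ => CZ.sum _ fun j _ => ?_
  exact (hg.Ax hK j).mul_left ((su_s1 hs i j).mul (su_Ax hf i))

theorem CZ.Gay (hK : IsClosed K) (hs : SmM s) (hf : CZ K f) (hg : SU g) : CZ K (Gay s f g) := by
  unfold HY.Gay
  refine CZ.sum _ fun i _ => CZ.sum _ fun j _ => ?_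
  exact ((hf.By hK i).mul_left (su_s2 hs i j)).mul_right (su_By hg j)

theorem CZ.Gay' (hK : IsClosed K) (hs : SmM s) (hf : SU f) (hg : CZ K g) : CZ K (HY.Gay s f g) := by
  unfold HY.Gay
  refine CZ.sum _ fun i _ => CZ.sum _ fun j _ => ?_
  exact (hg.By hK j).mul_left ((su_s2 hs i j).mul (su_By hf i))

theorem CZ.Gx (hK : IsClosed K) (hs : SmM s) (hf : CZ K f) (hg : CZ K g) : CZ K (Gx s f g) := by
  unfold HY.Gx
  exact ((hf.Gax hK hs (su_Gax hs su_uu hg.su)).add (hg.Gax hK hs (su_Gax hs su_uu hf.su))).sub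
    (CZ.Gax' hK hs su_uu (hf.Gax hK hs hg.su))

theorem CZ.Gy (hK : IsClosed K) (hs : SmM s) (hf : CZ K f) (hg : CZ K g) : CZ K (Gy s f g) := by
  unfold HY.Gy
  exact ((hf.Gay hK hs (su_Gay hs su_uu hg.su)).add (hg.Gay hK hs (su_Gay hs su_uu hf.su))).sub
    (CZ.Gay' hK hs su_uu (hf.Gay hK hs hg.su))

theorem CZ.Gm (hK : IsClosed K) (h1 : SmM s₁) (h2 : SmM s₂) (hf : CZ K f) (hg : CZ K g) :
    CZ K (Gm s₁ s₂ f g) := by
  unfold HY.Gm
  refine CZ.sum _ fun i _ => CZ.sum _ fun j _ => CZ.sum _ fun k _ => CZ.sum _ fun l _ => ?_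
  exact ((((hf.Ax hK j).mul_left (su_s1 h1 i j)).mul_right (su_mm i k)).mul_right
    (su_s2 h2 k l)).mul_right (su_By hg.su l)

theorem CZ.g2 (hK : IsClosed K) (hf : CZ K f) : CZ K (g2 f) := by
  unfold HY.g2
  exact (CZ.sum _ fun i _ => (hf.Ax hK i).sq).add (CZ.sum _ fun i _ => (hf.By hK i).sq)

theorem CZ.cr (hK : IsClosed K) (hf : CZ K f) : CZ K (cr f) := by
  unfold HY.cr
  refine CZ.sum _ fun i _ => CZ.sum _ fun j _ => ?_
  exact ((hf.Ax hK i).mul_right (su_mm i j)).mul_right (su_By hf.su j)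

theorem CZ.Hm (hK : IsClosed K) (hf : CZ K f) : CZ K (Hm f) := by
  unfold HY.Hm
  exact ((hf.g2 hK).mul_left su_uu).sub ((hf.cr hK).cmul 2)

theorem CZ.Hp (hK : IsClosed K) (hf : CZ K f) : CZ K (Hp f) := by
  unfold HY.Hp
  exact ((hf.g2 hK).mul_left su_uu).add ((hf.cr hK).cmul 2)

theorem CZ.Nb (hK : IsClosed K) (τ : ℝ) (hf : CZ K f) : CZ K (Nb τ f) := by
  unfold HY.Nb
  refine CZ.add (CZ.add ?_ ?_) ?_
  · exact hf.sq.mul_left (contDiffOn_const.mul ((su_uu.pow 2).mul su_ps))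
  · exact hf.sq.mul_left (contDiffOn_const.mul (su_uu.pow 2))
  · exact (hf.g2 hK).mul_left (contDiffOn_const.mul su_uu)

theorem CZ.Nc (hK : IsClosed K) (τ : ℝ) (hf : CZ K f) : CZ K (Nc τ f) := by
  unfold HY.Nc
  refine CZ.add (CZ.add (CZ.add (CZ.add ?_ ?_) ?_) ?_) ?_
  · exact hf.sq.mul_left (contDiffOn_const.mul (su_uu.mul (su_ps.pow 2)))
  · exact hf.sq.mul_left contDiffOn_const
  · exact (hf.g2 hK).mul_left (contDiffOn_const.mul su_ps)
  · exact hf.g2 hK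
  · exact (hf.Hm hK).cmul τ

theorem CZ.qB (hK : IsClosed K) (h1 : SmM s₁) (h2 : SmM s₂) (τ : ℝ) (hf : CZ K f) :
    CZ K (qB s₁ s₂ τ f) := by
  unfold HY.qB
  refine CZ.add (CZ.add ?_ ?_) ?_
  · exact (((hf.Gx hK h1 hf).add (hf.Gy hK h2 hf)).add ((hf.Gm hK h1 h2 hf).cmul 4)).cmul τ
  · refine hf.sq.mul_left (contDiffOn_const.mul (ContDiffOn.add (ContDiffOn.add
      (contDiffOn_const.mul ?_) (su_Gax h1 su_uu (su_vx h1))) (su_Gay h2 su_uu (su_vy h2))))
    exact (((su_L0x h1 (su_kax h1)).add (su_L0y h2 (su_kay h2))).add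
      (su_L0x h1 (su_kay h2))).add (su_L0y h2 (su_kax h1))
  · refine hf.sq.mul_left (contDiffOn_const.mul (ContDiffOn.add ?_ ?_))
    · exact su_Gax h1 su_uu ((su_Fxs h1).add (su_Fys h2))
    · exact su_Gay h2 su_uu ((su_Fxs h1).add (su_Fys h2))

theorem CZ.qC (hK : IsClosed K) (h1 : SmM s₁) (h2 : SmM s₂) (τ : ℝ) (hf : CZ K f) :
    CZ K (qC s₁ s₂ τ f) := by
  unfold HY.qC
  refine CZ.add (CZ.add ?_ ?_) ?_
  · exact (((hf.Gx hK h1 hf).add (hf.Gy hK h2 hf)).sub ((hf.Gm hK h1 h2 hf).cmul 4)).cmul τ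
  · refine hf.sq.mul_left (contDiffOn_const.mul (ContDiffOn.add (ContDiffOn.add
      (contDiffOn_const.mul ?_) (su_Gax h1 su_uu (su_vx h1))) (su_Gay h2 su_uu (su_vy h2))))
    exact (((su_L0x h1 (su_kax h1)).add (su_L0y h2 (su_kay h2))).sub
      (su_L0x h1 (su_kay h2))).sub (su_L0y h2 (su_kax h1))
  · refine hf.sq.mul_left (contDiffOn_const.mul (ContDiffOn.sub ?_ ?_))
    · exact su_Gax h1 su_uu ((su_Fxs h1).sub (su_Fys h2))
    · exact su_Gay h2 su_uu ((su_Fxs h1).sub (su_Fys h2))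

end forms

end Vale.Agent.P088.HY.H16
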