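import Vale.Agent.P088.R2.H16.Cz

/-!
# P088, row EST from its sub-rows
-/

open MeasureTheory Set Filter
open scoped ContDiff Matrix Topology

noncomputable section

namespace Vale.Agent.P088.HY.H16

open Vale.Agent.P088.LR Vale.Agent.P088.HY

variable {n : ℕ}

/-- The model form for `b`. -/
def Md (τ : ℝ) (b : VV n → ℝ) (z : VV n) : ℝ :=
  2 * τ * Hp b z + 8 * τ ^ 3 * (uu z ^ 2 * ps z) * b z ^ 2

theorem CZ.Md {K : Set (VV n)} {f : VV n → ℝ} (hK : IsClosed K) (τ : ℝ) (hf : CZ K f) :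
    CZ K (Md τ f) := by
  unfold H16.Md
  refine CZ.add ?_ ?_
  · exact (hf.Hp hK).mul_left contDiffOn_const
  · exact hf.sq.mul_left (contDiffOn_const.mul ((su_uu.pow 2).mul su_ps))

theorem TS_monoE {K : ℕ} {ε ε' : ℝ} {s : MF n} (hε : ε ≤ ε') (h : TS n K ε s) :
    TS n K ε' s := ⟨h.sm, h.sy, fun i j l hl x => (h.cl i j l hl x).trans hε, h.dv⟩

theorem g2_nonneg (f : VV n → ℝ) (z : VV n) : 0 ≤ g2 f z := by
  unfold g2
  positivity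

theorem CZ.of_TF {f : VV n → ℝ} {K : Set (VV n)} (hf : TF (Un n) f) (hK : tsupport f ⊆ K) :
    CZ K f :=
  ⟨hf.1.contDiffOn, fun _ hz => image_eq_zero_of_notMem_tsupport fun h => hz (hK h)⟩

/-- The lower bound of the form in `b`. -/
theorem low_b {K : Set (VV n)} (hK : IsCompact K) (hKU : K ⊆ Un n) {s₁ s₂ : MF n} (hm1 : SmM s₁)
    (hm2 : SmM s₂) {b : VV n → ℝ} (hb : CZ K b) {CB ε τ : ℝ} (hCB : 0 < CB) (hε : 0 ≤ ε)
    (hτ : 1 ≤ τ)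
    (h : ∀ z ∈ Un n, |qB s₁ s₂ τ b z - (2 * τ * Hp b z + 8 * τ ^ 3 * (uu z ^ 2 * ps z) * b z ^ 2)|
      ≤ CB * ε * (τ * uu z * g2 b z + τ ^ 3 * (uu z ^ 2 * ps z) * b z ^ 2)
        + CB * τ * uu z * b z ^ 2) :
    EE (Md τ b) - CB * (ε + 1 / √τ) * EE (Nb τ b) ≤ EE (qB s₁ s₂ τ b) := by
  have hcl := hK.isClosed
  have hτ0 : 0 < τ := by linarith
  rw [← EE_cmul, ← EE_sub hK hKU (hb.Md hcl τ) ((hb.Nb hcl τ).cmul _)]
  refine EE_mono hK hKU ((hb.Md hcl τ).sub ((hb.Nb hcl τ).cmul _)) (hb.qB hcl hm1 hm2 τ) ?_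
  intro z hz
  have h1 := (abs_le.1 (h z hz)).1
  have hu := one_le_uu hz
  have hps := ps_nonneg hz
  have hg := g2_nonneg b z
  have hs1 : 1 ≤ √τ := by rw [Real.one_le_sqrt]; exact hτ
  have hsτ : √τ ≤ τ := by
    calc √τ = √τ * 1 := (mul_one _).symm
      _ ≤ √τ * √τ := by gcongr
      _ = τ := Real.mul_self_sqrt hτ0.le
  have e1 : τ * uu z * b z ^ 2 ≤ 1 / √τ * (τ ^ 2 * uu z ^ 2 * b z ^ 2) := by
    have e2 : 1 ≤ 1 / √τ * τ := by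
      rw [one_div, ← div_eq_inv_mul, le_div_iff₀ (by linarith)]
      linarith
    have e3 : uu z ≤ uu z ^ 2 := by nlinarith
    calc τ * uu z * b z ^ 2 ≤ τ * uu z ^ 2 * b z ^ 2 := by gcongr
      _ = 1 * (τ * uu z ^ 2 * b z ^ 2) := by ring
      _ ≤ (1 / √τ * τ) * (τ * uu z ^ 2 * b z ^ 2) := by gcongr
      _ = _ := by ring
  have hA : 0 ≤ τ ^ 3 * (uu z ^ 2 * ps z) * b z ^ 2 := by positivity
  have hB : 0 ≤ τ ^ 2 * uu z ^ 2 * b z ^ 2 := by positivity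
  have hC : 0 ≤ τ * uu z * g2 b z := by positivity
  have hs0 : 0 ≤ 1 / √τ := by positivity
  unfold Md Nb
  have k1 : CB * ε * (τ * uu z * g2 b z + τ ^ 3 * (uu z ^ 2 * ps z) * b z ^ 2)
      ≤ CB * ε * (τ ^ 3 * (uu z ^ 2 * ps z) * b z ^ 2 + τ ^ 2 * uu z ^ 2 * b z ^ 2
        + τ * uu z * g2 b z) := by
    apply mul_le_mul_of_nonneg_left _ (by positivity)
    linarith
  have k2 : CB * τ * uu z * b z ^ 2 ≤ CB * (1 / √τ) * (τ ^ 3 * (uu z ^ 2 * ps z) * b z ^ 2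
      + τ ^ 2 * uu z ^ 2 * b z ^ 2 + τ * uu z * g2 b z) := by
    calc CB * τ * uu z * b z ^ 2 = CB * (τ * uu z * b z ^ 2) := by ring
      _ ≤ CB * (1 / √τ * (τ ^ 2 * uu z ^ 2 * b z ^ 2)) :=
        mul_le_mul_of_nonneg_left e1 hCB.le
      _ = CB * (1 / √τ) * (τ ^ 2 * uu z ^ 2 * b z ^ 2) := by ring
      _ ≤ _ := by
        apply mul_le_mul_of_nonneg_left _ (by positivity)
        linarith
  have k3 : CB * (ε + 1 / √τ) * (τ ^ 3 * (uu z ^ 2 * ps z) * b z ^ 2 + τ ^ 2 * uu z ^ 2 * b z ^ 2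
      + τ * uu z * g2 b z) = CB * ε * (τ ^ 3 * (uu z ^ 2 * ps z) * b z ^ 2
      + τ ^ 2 * uu z ^ 2 * b z ^ 2 + τ * uu z * g2 b z) + CB * (1 / √τ) *
      (τ ^ 3 * (uu z ^ 2 * ps z) * b z ^ 2 + τ ^ 2 * uu z ^ 2 * b z ^ 2 + τ * uu z * g2 b z) := by
    ring
  rw [k3]
  linarith

/-- The lower bound of the form in `c`. -/
theorem low_c {K : Set (VV n)} (hK : IsCompact K) (hKU : K ⊆ Un n) {s₁ s₂ : MF n} (hm1 : SmM s₁)
    (hm2 : SmM s₂) {c : VV n → ℝ} (hc : CZ K c) {CC ε τ : ℝ}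
    (h : ∀ z ∈ Un n, 2 * τ * Hm c z - CC * ε * Nc τ c z ≤ qC s₁ s₂ τ c z) :
    2 * τ * EE (Hm c) - CC * ε * EE (Nc τ c) ≤ EE (qC s₁ s₂ τ c) := by
  have hcl := hK.isClosed
  rw [← EE_cmul, ← EE_cmul, ← EE_sub hK hKU ((hc.Hm hcl).cmul _) ((hc.Nc hcl τ).cmul _)]
  exact EE_mono hK hKU (((hc.Hm hcl).cmul _).sub ((hc.Nc hcl τ).cmul _)) (hc.qC hcl hm1 hm2 τ) h

/-- Completion of the square in the mixed term. -/
theorem low_x {K : Set (VV n)} (hK : IsCompact K) (hKU : K ⊆ Un n) {b X : VV n → ℝ}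
    (hb : CZ K b) (hX : CZ K X) (τ : ℝ) :
    -(16 * τ ^ 2 * EE (fun z => uu z ^ 2 * b z ^ 2)) ≤
      1 / 4 * EE (fun z => X z ^ 2) - 4 * τ * EE (fun z => uu z * b z * X z) := by
  have h1 : CZ K (fun z => uu z * b z * X z) := hX.mul_left (su_uu.mul hb.su)
  have h2 : CZ K (fun z => uu z ^ 2 * b z ^ 2) := hb.sq.mul_left (su_uu.pow 2)
  have h3 : 1 / 4 * EE (fun z => X z ^ 2) - 4 * τ * EE (fun z => uu z * b z * X z)
      + 16 * τ ^ 2 * EE (fun z => uu z ^ 2 * b z ^ 2)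
      = EE (fun z => (1 / 4 * X z ^ 2 - 4 * τ * (uu z * b z * X z))
        + 16 * τ ^ 2 * (uu z ^ 2 * b z ^ 2)) := by
    rw [EE_add hK hKU ((hX.sq.cmul (1 / 4)).sub (h1.cmul (4 * τ))) (h2.cmul (16 * τ ^ 2)),
      EE_sub hK hKU (hX.sq.cmul (1 / 4)) (h1.cmul (4 * τ)), EE_cmul, EE_cmul, EE_cmul]
  have h4 : 0 ≤ EE (fun z => (1 / 4 * X z ^ 2 - 4 * τ * (uu z * b z * X z))
        + 16 * τ ^ 2 * (uu z ^ 2 * b z ^ 2)) := by
    refine EE_nonneg fun z _ => ?_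
    have : (1 / 4 * X z ^ 2 - 4 * τ * (uu z * b z * X z)) + 16 * τ ^ 2 * (uu z ^ 2 * b z ^ 2)
        = (X z / 2 - 4 * τ * (uu z * b z)) ^ 2 := by ring
    rw [this]
    positivity
  linarith

/-- The arithmetic of the end. -/
theorem arith_est {T βp βm γp γm M h x u2 Bn' Cn qb qc qx CB CC CX C1 C2 δ δ' : ℝ}
    (hid : T = 1 / 4 * (βp + βm + γp + γm) + qb + qc + qx) (hβm : 0 ≤ βm) (hβp : 0 ≤ βp)
    (hγp : 0 ≤ γp)
    (hqb : M - CB * δ * Bn' ≤ qb) (hqc : 2 * h - CC * δ' * Cn ≤ qc)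
    (hqx : |qx + 4 * x| ≤ CX * δ * (Bn' + Cn)) (hx : -(16 * u2) ≤ 1 / 4 * γm - 4 * x)
    (hM : 24 * u2 ≤ M) (hu2 : 0 ≤ u2) (hh : 0 ≤ h)
    (h1 : Bn' ≤ C1 * (M + βp)) (h2 : Cn ≤ C2 * (h + γp)) (hC1 : 0 < C1) (hC2 : 0 < C2)
    (hB : 0 ≤ Bn') (hC : 0 ≤ Cn) (hCB : 0 < CB) (hCC : 0 < CC) (hδ' : δ' ≤ δ)
    (hCX : 0 < CX) (hδ0 : 0 ≤ δ) (hδ : δ * (CB + CC + CX) ≤ 1 / (8 * (C1 + C2))) :
    Bn' + Cn ≤ 8 * (C1 + C2) * T := by
  have hq := (abs_le.1 hqx).1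
  have hs : 0 < 8 * (C1 + C2) := by positivity
  have g1 : Bn' / (4 * C1) ≤ 1 / 4 * (M + βp) := by
    rw [div_le_iff₀ (by positivity)]; nlinarith
  have g2 : Cn / (4 * C2) ≤ 1 / 4 * (h + γp) := by
    rw [div_le_iff₀ (by positivity)]; nlinarith
  have g3 : Bn' / (4 * (C1 + C2)) ≤ Bn' / (4 * C1) :=
    div_le_div_of_nonneg_left hB (by positivity) (by linarith)
  have g4 : Cn / (4 * (C1 + C2)) ≤ Cn / (4 * C2) :=
    div_le_div_of_nonneg_left hC (by positivity) (by linarith)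
  have g5 : CB * δ * Bn' + CC * δ' * Cn + CX * δ * (Bn' + Cn)
      ≤ 1 / (8 * (C1 + C2)) * (Bn' + Cn) := by
    have k1 : CC * δ' * Cn ≤ CC * δ * Cn := by gcongr
    have k2 : 0 ≤ CC * δ * Bn' := by positivity
    have k3 : 0 ≤ CB * δ * Cn := by positivity
    calc CB * δ * Bn' + CC * δ' * Cn + CX * δ * (Bn' + Cn)
        ≤ δ * (CB + CC + CX) * (Bn' + Cn) := by nlinarith
      _ ≤ 1 / (8 * (C1 + C2)) * (Bn' + Cn) :=
        mul_le_mul_of_nonneg_right hδ (by linarith)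
  have g6 : T ≥ 1 / 4 * βp + 1 / 4 * γp + M / 3 + 2 * h
      - (CB * δ * Bn' + CC * δ' * Cn + CX * δ * (Bn' + Cn)) := by
    rw [hid]
    linarith
  have g7 : 1 / (8 * (C1 + C2)) * (Bn' + Cn) ≤ T := by
    have e1 : Bn' / (4 * (C1 + C2)) + Cn / (4 * (C1 + C2))
        = 2 * (1 / (8 * (C1 + C2)) * (Bn' + Cn)) := by
      field_simp
      ring
    have hM0 : 0 ≤ M := by linarith
    linarith
  have g8 := mul_le_mul_of_nonneg_left g7 hs.le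
  have e2 : 8 * (C1 + C2) * (1 / (8 * (C1 + C2)) * (Bn' + Cn)) = Bn' + Cn := by
    field_simp
  linarith

/-- (ESTs) the strong form of the basic estimate. -/
def RowESTs : Prop := ∀ n : ℕ, 3 ≤ n → ∃ C ε τ₀ : ℝ, 0 < C ∧ 0 < ε ∧ 1 ≤ τ₀ ∧ ∀ s₁ s₂ : MF n,
  TS n 3 ε s₁ → TS n 3 ε s₂ → ∀ η τ : ℝ, 0 ≤ η → DB 3 η s₁ s₂ → τ₀ ≤ τ → τ * η ≤ ε →
  ∀ a₁ a₂ : VV n → ℝ, TF (Un n) a₁ → TF (Un n) a₂ →
  EE (Nb τ (fun z => a₁ z + a₂ z)) + EE (Nc τ (fun z => a₁ z - a₂ z)) ≤ C * TT s₁ s₂ τ a₁ a₂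

/-- `0 ≤ EE (Hm c)` for test functions, from the gap. -/
theorem EE_Hm_nonneg (hEGAP : RowEGAP) (hn : 2 ≤ n) {c : VV n → ℝ} (hc : TF (Un n) c) :
    0 ≤ EE (Hm c) := by
  have lgap := hEGAP n hn c hc
  have k1 : 0 ≤ EE (fun z => c z ^ 2) := EE_nonneg fun z _ => sq_nonneg _
  have hn2 : (2 : ℝ) ≤ n := by exact_mod_cast hn
  have k2 : 0 < 4 / ((n : ℝ) - 1) ^ 2 := by
    have : 0 < (n : ℝ) - 1 := by linarith
    positivity
  by_contra hneg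
  push Not at hneg
  have := mul_neg_of_pos_of_neg k2 hneg
  linarith

theorem EE_Nb_low {K : Set (VV n)} (hK : IsCompact K) (hKU : K ⊆ Un n) {b : VV n → ℝ}
    (hb : CZ K b) {τ : ℝ} (hτ0 : 0 < τ) : EE (fun z => τ ^ 2 * b z ^ 2) ≤ EE (Nb τ b) := by
  refine EE_mono hK hKU (hb.sq.cmul _) (hb.Nb hK.isClosed τ) fun z hz => ?_
  have hu := one_le_uu hz
  have hps := ps_nonneg hz
  have hg := g2_nonneg b z
  have hu2 : 1 ≤ uu z ^ 2 := one_le_pow₀ hu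
  unfold Nb
  have r1 : 0 ≤ τ ^ 3 * (uu z ^ 2 * ps z) * b z ^ 2 := by positivity
  have r2 : 0 ≤ τ * uu z * g2 b z := by positivity
  have r3 : τ ^ 2 * b z ^ 2 ≤ τ ^ 2 * uu z ^ 2 * b z ^ 2 := by
    calc τ ^ 2 * b z ^ 2 = τ ^ 2 * 1 * b z ^ 2 := by ring
      _ ≤ _ := by gcongr
  linarith

/-- Lower bounds of `EE (Nc τ c)`. -/
theorem EE_Nc_low {K : Set (VV n)} (hK : IsCompact K) (hKU : K ⊆ Un n) {c : VV n → ℝ}
    (hc : CZ K c) {τ : ℝ} (hτ0 : 0 < τ) (hh : 0 ≤ EE (Hm c)) :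
    EE (fun z => τ * c z ^ 2) ≤ EE (Nc τ c) ∧ EE (g2 c) ≤ EE (Nc τ c) ∧
      τ * EE (Hm c) ≤ EE (Nc τ c) ∧
      EE (fun z => τ ^ 3 * (uu z * ps z ^ 2) * c z ^ 2) ≤ EE (Nc τ c) := by
  have hcl := hK.isClosed
  have p1 : CZ K (fun z => τ ^ 3 * (uu z * ps z ^ 2) * c z ^ 2) :=
    hc.sq.mul_left (contDiffOn_const.mul (su_uu.mul (su_ps.pow 2)))
  have p2 : CZ K (fun z => τ * c z ^ 2) := hc.sq.cmul τ
  have p3 : CZ K (fun z => τ * ps z * g2 c z) :=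
    (hc.g2 hcl).mul_left (contDiffOn_const.mul su_ps)
  have p4 : CZ K (g2 c) := hc.g2 hcl
  have p5 : CZ K (fun z => τ * Hm c z) := (hc.Hm hcl).cmul τ
  have hNc : EE (Nc τ c) = EE (fun z => τ ^ 3 * (uu z * ps z ^ 2) * c z ^ 2)
      + EE (fun z => τ * c z ^ 2) + EE (fun z => τ * ps z * g2 c z) + EE (g2 c)
      + EE (fun z => τ * Hm c z) := by
    have : Nc τ c = fun z => τ ^ 3 * (uu z * ps z ^ 2) * c z ^ 2 + τ * c z ^ 2
      + τ * ps z * g2 c z + g2 c z + τ * Hm c z := rfl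
    rw [this, EE_add hK hKU (((p1.add p2).add p3).add p4) p5,
      EE_add hK hKU ((p1.add p2).add p3) p4, EE_add hK hKU (p1.add p2) p3,
      EE_add hK hKU p1 p2]
  have q1 : 0 ≤ EE (fun z => τ ^ 3 * (uu z * ps z ^ 2) * c z ^ 2) := EE_nonneg fun z hz => by
    have hu := one_le_uu hz
    positivity
  have q2 : 0 ≤ EE (fun z => τ * c z ^ 2) := EE_nonneg fun z _ => by positivity
  have q3 : 0 ≤ EE (fun z => τ * ps z * g2 c z) := EE_nonneg fun z hz => by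
    have hps := ps_nonneg hz
    have hg := g2_nonneg c z
    positivity
  have q4 : 0 ≤ EE (g2 c) := EE_nonneg fun z _ => g2_nonneg c z
  have q5 : 0 ≤ τ * EE (Hm c) := mul_nonneg hτ0.le hh
  rw [EE_cmul τ (Hm c)] at hNc
  refine ⟨?_, ?_, ?_, ?_⟩ <;> linarith

theorem rowESTs : RowEID → RowEQB → RowEQC → RowEQX → RowEGAP → RowEOS → RowEN1 → RowEN2 →
    RowESTs := by
  intro hEID hEQB hEQC hEQX hEGAP hEOS hEN1 hEN2 n hn
  obtain ⟨CB, hCB, hB⟩ := hEQB n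
  obtain ⟨CC, hCC, hC⟩ := hEQC n
  obtain ⟨CX, hCX, hX⟩ := hEQX n
  obtain ⟨C1, ε1, τ1, hC1, hε1, hτ1, h1⟩ := hEN1 n (by omega)
  obtain ⟨C2, ε2, τ2, hC2, hε2, hτ2, h2⟩ := hEN2 n (by omega)
  set cc : ℝ := 1 / (8 * (C1 + C2)) / (2 * (CB + CC + CX)) with hcc
  have hcc0 : 0 < cc := by positivity
  refine ⟨8 * (C1 + C2), min (min 1 cc) (min ε1 ε2), max (max τ1 τ2) ((1 / cc) ^ 2), by positivity,
    by simp only [lt_min_iff]; exact ⟨⟨one_pos, hcc0⟩, hε1, hε2⟩, ?_, ?_⟩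
  · exact hτ1.trans ((le_max_left τ1 τ2).trans (le_max_left _ _))
  intro s₁ s₂ hs₁ hs₂ η τ _ hη hτ hτη a₁ a₂ ha₁ ha₂
  set ε : ℝ := min (min 1 cc) (min ε1 ε2) with hε
  have hε0 : 0 < ε := by rw [hε]; simp only [lt_min_iff]; exact ⟨⟨one_pos, hcc0⟩, hε1, hε2⟩
  have hε1' : ε ≤ 1 := (min_le_left _ _).trans (min_le_left _ _)
  have hεcc : ε ≤ cc := (min_le_left _ _).trans (min_le_right _ _)
  have hεε1 : ε ≤ ε1 := (min_le_right _ _).trans (min_le_left _ _)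
  have hεε2 : ε ≤ ε2 := (min_le_right _ _).trans (min_le_right _ _)
  have hττ1 : τ1 ≤ τ := ((le_max_left _ _).trans (le_max_left _ _)).trans hτ
  have hττ2 : τ2 ≤ τ := ((le_max_right _ _).trans (le_max_left _ _)).trans hτ
  have hτcc : (1 / cc) ^ 2 ≤ τ := (le_max_right _ _).trans hτ
  have hτ1' : 1 ≤ τ := hτ1.trans hττ1
  have hτ0 : 0 < τ := by linarith
  have hsq : 1 / √τ ≤ cc := by
    have h3 : 1 / cc ≤ √τ := Real.le_sqrt_of_sq_le hτcc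
    rw [div_le_iff₀ (Real.sqrt_pos.2 hτ0)]
    rw [div_le_iff₀ hcc0] at h3
    linarith
  have hm1 := hs₁.sm
  have hm2 := hs₂.sm
  set b : VV n → ℝ := fun z => a₁ z + a₂ z with hbdef
  set c : VV n → ℝ := fun z => a₁ z - a₂ z with hcdef
  have hbTF : TF (Un n) b := by
    refine ⟨ha₁.1.add ha₂.1, ha₁.2.1.add ha₂.2.1, ?_⟩
    exact (tsupport_add a₁ a₂).trans (union_subset ha₁.2.2 ha₂.2.2)
  have hcTF : TF (Un n) c := by
    refine ⟨ha₁.1.sub ha₂.1, ha₁.2.1.sub ha₂.2.1, ?_⟩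
    exact (tsupport_sub a₁ a₂).trans (union_subset ha₁.2.2 ha₂.2.2)
  set K : Set (VV n) := tsupport b ∪ tsupport c with hKdef
  have hK : IsCompact K := hbTF.2.1.isCompact.union hcTF.2.1.isCompact
  have hKU : K ⊆ Un n := union_subset hbTF.2.2 hcTF.2.2
  have hcl := hK.isClosed
  have hbZ : CZ K b := CZ.of_TF hbTF subset_union_left
  have hcZ : CZ K c := CZ.of_TF hcTF subset_union_right
  -- the identity
  have hid := hEID n ε s₁ s₂ hs₁ hs₂ τ b c hbTF hcTF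
  have e1 : (fun z => (b z + c z) / 2) = a₁ := by
    ext z; simp only [hbdef, hcdef]; ring
  have e2 : (fun z => (b z - c z) / 2) = a₂ := by
    ext z; simp only [hbdef, hcdef]; ring
  rw [e1, e2] at hid
  have zPb := (hbZ.Px hcl hm1 τ)
  have zQb := (hbZ.Py hcl hm2 τ)
  have zPc := (hcZ.Px hcl hm1 τ)
  have zQc := (hcZ.Py hcl hm2 τ)
  have hsplit : EE (fun z => (Px s₁ τ b z + Py s₂ τ b z) ^ 2 + (Px s₁ τ b z - Py s₂ τ b z) ^ 2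
      + (Px s₁ τ c z + Py s₂ τ c z) ^ 2 + (Px s₁ τ c z - Py s₂ τ c z) ^ 2)
      = EE (fun z => (Px s₁ τ b z + Py s₂ τ b z) ^ 2) + EE (fun z => (Px s₁ τ b z - Py s₂ τ b z) ^ 2)
      + EE (fun z => (Px s₁ τ c z + Py s₂ τ c z) ^ 2)
      + EE (fun z => (Px s₁ τ c z - Py s₂ τ c z) ^ 2) := by
    rw [EE_add hK hKU (((zPb.add zQb).sq.add (zPb.sub zQb).sq).add (zPc.add zQc).sq)
      (zPc.sub zQc).sq, EE_add hK hKU ((zPb.add zQb).sq.add (zPb.sub zQb).sq) (zPc.add zQc).sq,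
      EE_add hK hKU (zPb.add zQb).sq (zPb.sub zQb).sq]
  rw [hsplit] at hid
  have lb := low_b hK hKU hm1 hm2 hbZ hCB hε0.le hτ1'
    (hB ε s₁ s₂ hε0.le hε1' hs₁ hs₂ τ hτ1' b hbZ.su)
  have lc := low_c hK hKU hm1 hm2 hcZ (hC ε η s₁ s₂ hε0.le hε1' hs₁ hs₂ hη τ hτ1' hτη c hcZ.su)
  have lx := hX ε η s₁ s₂ hε0.le hε1' hs₁ hs₂ hη τ hτ1' hτη b c hbTF hcTF
  have lsq := low_x hK hKU hbZ (zPc.sub zQc) τ
  have los := hEOS n τ hτ0 b hbTF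
  have l1 := h1 s₁ s₂ (TS_monoE hεε1 hs₁) (TS_monoE hεε1 hs₂) τ hττ1 b hbTF
  have l2 := h2 s₁ s₂ (TS_monoE hεε2 hs₁) (TS_monoE hεε2 hs₂) τ hττ2 c hcTF
  have zu2 : CZ K (fun z => uu z ^ 2 * b z ^ 2) := hbZ.sq.mul_left (su_uu.pow 2)
  have hu2 : 0 ≤ τ ^ 2 * EE (fun z => uu z ^ 2 * b z ^ 2) :=
    mul_nonneg (by positivity) (EE_nonneg fun z _ => by positivity)
  have hM : 24 * (τ ^ 2 * EE (fun z => uu z ^ 2 * b z ^ 2)) ≤ EE (Md τ b) := by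
    have k1 : EE (fun z => 3 * (uu z ^ 2 * b z ^ 2)) ≤
        EE (fun z => (((n : ℝ) + 1) * uu z ^ 2 - 1) * b z ^ 2) := by
      refine EE_mono hK hKU (zu2.cmul 3)
        (hbZ.sq.mul_left ((contDiffOn_const.mul (su_uu.pow 2)).sub contDiffOn_const)) ?_
      intro z hz
      have hu := one_le_uu hz
      have hn3 : (3 : ℝ) ≤ n := by exact_mod_cast hn
      have hu2 : 1 ≤ uu z ^ 2 := one_le_pow₀ hu
      have : 3 * uu z ^ 2 ≤ ((n : ℝ) + 1) * uu z ^ 2 - 1 := by nlinarith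
      calc 3 * (uu z ^ 2 * b z ^ 2) = (3 * uu z ^ 2) * b z ^ 2 := by ring
        _ ≤ _ := mul_le_mul_of_nonneg_right this (sq_nonneg _)
    rw [EE_cmul] at k1
    have k2 : 8 * τ ^ 2 * EE (fun z => (((n : ℝ) + 1) * uu z ^ 2 - 1) * b z ^ 2) ≤ EE (Md τ b) :=
      los
    have k3 := mul_le_mul_of_nonneg_left k1 (show 0 ≤ 8 * τ ^ 2 by positivity)
    linarith
  have hHm : 0 ≤ EE (Hm c) := EE_Hm_nonneg hEGAP (by omega) hcTF
  have hh : 0 ≤ τ * EE (Hm c) := mul_nonneg hτ0.le hHm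
  have hNb0 : 0 ≤ EE (Nb τ b) :=
    (EE_nonneg fun z _ => by positivity).trans (EE_Nb_low hK hKU hbZ hτ0)
  have hNc0 : 0 ≤ EE (Nc τ c) := hh.trans (EE_Nc_low hK hKU hcZ hτ0 hHm).2.2.1
  have hfin := arith_est (T := TT s₁ s₂ τ a₁ a₂)
    (βp := EE (fun z => (Px s₁ τ b z + Py s₂ τ b z) ^ 2))
    (βm := EE (fun z => (Px s₁ τ b z - Py s₂ τ b z) ^ 2))
    (γp := EE (fun z => (Px s₁ τ c z + Py s₂ τ c z) ^ 2))
    (γm := EE (fun z => (Px s₁ τ c z - Py s₂ τ c z) ^ 2)) (M := EE (Md τ b))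
    (h := τ * EE (Hm c)) (x := τ * EE (fun z => uu z * b z * (Px s₁ τ c z - Py s₂ τ c z)))
    (u2 := τ ^ 2 * EE (fun z => uu z ^ 2 * b z ^ 2)) (Bn' := EE (Nb τ b)) (Cn := EE (Nc τ c))
    (qb := EE (qB s₁ s₂ τ b)) (qc := EE (qC s₁ s₂ τ c)) (qx := EE (qX s₁ s₂ τ b c))
    (CB := CB) (CC := CC) (CX := CX) (C1 := C1) (C2 := C2) (δ := ε + 1 / √τ) (δ' := ε)
    hid (EE_nonneg fun z _ => sq_nonneg _) (EE_nonneg fun z _ => sq_nonneg _)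
    (EE_nonneg fun z _ => sq_nonneg _) lb (by linarith) (by
      rw [← mul_assoc]; exact lx) (by linarith) hM hu2 hh l1 l2 hC1 hC2 hNb0 hNc0 hCB hCC
      (by have : 0 ≤ 1 / √τ := by positivity
          linarith) hCX (by positivity) (by
      have k1 : ε + 1 / √τ ≤ 2 * cc := by linarith
      calc (ε + 1 / √τ) * (CB + CC + CX) ≤ 2 * cc * (CB + CC + CX) :=
            mul_le_mul_of_nonneg_right k1 (by positivity)
        _ = 1 / (8 * (C1 + C2)) := by rw [hcc]; field_simp)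
  exact hfin

theorem rowEST_of_s : RowESTs → RowEGAP → RowEST := by
  intro hs hEGAP n hn
  obtain ⟨C, ε, τ₀, hC, hε, hτ₀, h⟩ := hs n hn
  refine ⟨C, ε, τ₀, hC, hε, by linarith, ?_⟩
  intro s₁ s₂ hs₁ hs₂ η τ hη0 hη hτ hτη a₁ a₂ ha₁ ha₂
  have hfin := h s₁ s₂ hs₁ hs₂ η τ hη0 hη hτ hτη a₁ a₂ ha₁ ha₂
  have hτ0 : 0 < τ := by linarith
  set b : VV n → ℝ := fun z => a₁ z + a₂ z with hbdef
  set c : VV n → ℝ := fun z => a₁ z - a₂ z with hcdef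
  have hbTF : TF (Un n) b := by
    refine ⟨ha₁.1.add ha₂.1, ha₁.2.1.add ha₂.2.1, ?_⟩
    exact (tsupport_add a₁ a₂).trans (union_subset ha₁.2.2 ha₂.2.2)
  have hcTF : TF (Un n) c := by
    refine ⟨ha₁.1.sub ha₂.1, ha₁.2.1.sub ha₂.2.1, ?_⟩
    exact (tsupport_sub a₁ a₂).trans (union_subset ha₁.2.2 ha₂.2.2)
  set K : Set (VV n) := tsupport b ∪ tsupport c with hKdef
  have hK : IsCompact K := hbTF.2.1.isCompact.union hcTF.2.1.isCompact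
  have hKU : K ⊆ Un n := union_subset hbTF.2.2 hcTF.2.2
  have hbZ : CZ K b := CZ.of_TF hbTF subset_union_left
  have hcZ : CZ K c := CZ.of_TF hcTF subset_union_right
  have hHm : 0 ≤ EE (Hm c) := EE_Hm_nonneg hEGAP (by omega) hcTF
  have hlow : EE (fun z => τ ^ 2 * b z ^ 2 + τ * c z ^ 2) ≤ EE (Nb τ b) + EE (Nc τ c) := by
    rw [EE_add hK hKU (hbZ.sq.cmul _) (hcZ.sq.cmul _)]
    exact add_le_add (EE_Nb_low hK hKU hbZ hτ0) (EE_Nc_low hK hKU hcZ hτ0 hHm).1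
  exact hlow.trans hfin

theorem rowEST : RowEID → RowEQB → RowEQC → RowEQX → RowEGAP → RowEOS → RowEN1 → RowEN2 →
    RowEST := fun h1 h2 h3 h4 h5 h6 h7 h8 => rowEST_of_s (rowESTs h1 h2 h3 h4 h5 h6 h7 h8) h5

end Vale.Agent.P088.HY.H16
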