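import Vale.Agent.P088.R2.H16.Pert
import Vale.Agent.P088.R2.H349.J.Spec

/-!
# P088, the basic estimate for systems
-/

open MeasureTheory Set Filter
open scoped ContDiff Matrix Topology

noncomputable section

namespace Vale.Agent.P088.HY.H16

open Vale.Agent.P088.LR Vale.Agent.P088.HY

variable {n m : ℕ}

/-- Elementary bound of lower order terms. -/
theorem lot_bound (r : ℝ) (hr0 : 0 ≤ r) (hr : r ≤ 1 / 2) (b : Fin n → Fin m → ℝ) (c : Fin m → ℝ)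
    (A : Fin m → Fin n → ℝ) (α x : Fin n → ℝ) (f : Fin m → ℝ) (τ γ ε M U : ℝ)
    (hb : ∀ l q, |b l q| ≤ ε) (hc : ∀ q, |c q| ≤ M) (hα : ∑ l, α l * α l = U)
    (hx : ∑ l, x l * x l ≤ 1) :
    (∑ q, (∑ l, r * b l q * (A q l + τ * α l * f q + γ * x l * f q) + r ^ 2 * c q * f q)) ^ 2 ≤
      m * (2 * n * (1 + γ ^ 2) + 1) *
        ∑ q, (ε ^ 2 * (∑ l, A q l ^ 2 + τ ^ 2 * U * f q ^ 2 + f q ^ 2) + M ^ 2 * f q ^ 2) := by
  have hr2 : r ^ 2 ≤ 1 / 4 := by nlinarith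
  have hU : 0 ≤ U := by
    rw [← hα]
    exact Finset.sum_nonneg fun l _ => mul_self_nonneg _
  have h1 : ∀ q l, (r * b l q * (A q l + τ * α l * f q + γ * x l * f q)) ^ 2 ≤
      ε ^ 2 * (A q l ^ 2 + τ ^ 2 * (α l * α l) * f q ^ 2 + γ ^ 2 * (x l * x l) * f q ^ 2) := by
    intro q l
    have e1 : (A q l + τ * α l * f q + γ * x l * f q) ^ 2 ≤
        3 * (A q l ^ 2 + τ ^ 2 * (α l * α l) * f q ^ 2 + γ ^ 2 * (x l * x l) * f q ^ 2) := by
      nlinarith [sq_nonneg (A q l - τ * α l * f q), sq_nonneg (A q l - γ * x l * f q),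
        sq_nonneg (τ * α l * f q - γ * x l * f q)]
    have e2 : b l q ^ 2 ≤ ε ^ 2 := by
      rw [← sq_abs]
      exact pow_le_pow_left₀ (abs_nonneg _) (hb l q) 2
    have e3 : r ^ 2 * b l q ^ 2 ≤ 1 / 4 * ε ^ 2 :=
      mul_le_mul hr2 e2 (sq_nonneg _) (by norm_num)
    have e4 : 0 ≤ A q l ^ 2 + τ ^ 2 * (α l * α l) * f q ^ 2 + γ ^ 2 * (x l * x l) * f q ^ 2 := by
      have := mul_self_nonneg (α l)
      have := mul_self_nonneg (x l)
      positivity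
    calc (r * b l q * (A q l + τ * α l * f q + γ * x l * f q)) ^ 2
        = (r ^ 2 * b l q ^ 2) * (A q l + τ * α l * f q + γ * x l * f q) ^ 2 := by ring
      _ ≤ (1 / 4 * ε ^ 2) * (3 * (A q l ^ 2 + τ ^ 2 * (α l * α l) * f q ^ 2
            + γ ^ 2 * (x l * x l) * f q ^ 2)) :=
          mul_le_mul e3 e1 (sq_nonneg _) (by positivity)
      _ = 3 / 4 * (ε ^ 2 * (A q l ^ 2 + τ ^ 2 * (α l * α l) * f q ^ 2
            + γ ^ 2 * (x l * x l) * f q ^ 2)) := by ring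
      _ ≤ 1 * (ε ^ 2 * (A q l ^ 2 + τ ^ 2 * (α l * α l) * f q ^ 2
            + γ ^ 2 * (x l * x l) * f q ^ 2)) := by
          refine mul_le_mul_of_nonneg_right (by norm_num) (by positivity)
      _ = _ := by ring
  have h2 : ∀ q, (∑ l, r * b l q * (A q l + τ * α l * f q + γ * x l * f q)) ^ 2 ≤
      n * (1 + γ ^ 2) * (ε ^ 2 * (∑ l, A q l ^ 2 + τ ^ 2 * U * f q ^ 2 + f q ^ 2)) := by
    intro q
    have k1 : (∑ l, r * b l q * (A q l + τ * α l * f q + γ * x l * f q)) ^ 2 ≤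
        n * ∑ l, (r * b l q * (A q l + τ * α l * f q + γ * x l * f q)) ^ 2 := by
      have := sq_sum_le_card_mul_sum_sq (s := (Finset.univ : Finset (Fin n)))
        (f := fun l => r * b l q * (A q l + τ * α l * f q + γ * x l * f q))
      simpa using this
    have k2 : ∑ l, (r * b l q * (A q l + τ * α l * f q + γ * x l * f q)) ^ 2 ≤
        ε ^ 2 * (∑ l, A q l ^ 2 + τ ^ 2 * U * f q ^ 2 + γ ^ 2 * f q ^ 2) := by
      calc ∑ l, (r * b l q * (A q l + τ * α l * f q + γ * x l * f q)) ^ 2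
          ≤ ∑ l, ε ^ 2 * (A q l ^ 2 + τ ^ 2 * (α l * α l) * f q ^ 2
            + γ ^ 2 * (x l * x l) * f q ^ 2) := Finset.sum_le_sum fun l _ => h1 q l
        _ = ε ^ 2 * (∑ l, A q l ^ 2 + τ ^ 2 * (∑ l, α l * α l) * f q ^ 2
            + γ ^ 2 * (∑ l, x l * x l) * f q ^ 2) := by
            rw [← Finset.mul_sum, Finset.sum_add_distrib, Finset.sum_add_distrib, Finset.mul_sum,
              Finset.mul_sum, Finset.sum_mul, Finset.sum_mul]
        _ ≤ _ := by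
            rw [hα]
            have : γ ^ 2 * (∑ l, x l * x l) * f q ^ 2 ≤ γ ^ 2 * 1 * f q ^ 2 := by gcongr
            have h3 := mul_le_mul_of_nonneg_left this (sq_nonneg ε)
            linarith
    have k3 : 0 ≤ ∑ l, A q l ^ 2 := Finset.sum_nonneg fun l _ => sq_nonneg _
    have k4 : ∑ l, A q l ^ 2 + τ ^ 2 * U * f q ^ 2 + γ ^ 2 * f q ^ 2 ≤
        (1 + γ ^ 2) * (∑ l, A q l ^ 2 + τ ^ 2 * U * f q ^ 2 + f q ^ 2) := by
      have e1 : 0 ≤ γ ^ 2 * ∑ l, A q l ^ 2 := by positivity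
      have e2 : 0 ≤ γ ^ 2 * (τ ^ 2 * U * f q ^ 2) := by positivity
      have e3 : 0 ≤ f q ^ 2 := by positivity
      linarith
    calc _ ≤ n * ∑ l, (r * b l q * (A q l + τ * α l * f q + γ * x l * f q)) ^ 2 := k1
      _ ≤ n * (ε ^ 2 * ((1 + γ ^ 2) * (∑ l, A q l ^ 2 + τ ^ 2 * U * f q ^ 2 + f q ^ 2))) := by
          refine mul_le_mul_of_nonneg_left (k2.trans ?_) (Nat.cast_nonneg n)
          exact mul_le_mul_of_nonneg_left k4 (sq_nonneg ε)
      _ = _ := by ring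
  have h3 : ∀ q, (r ^ 2 * c q * f q) ^ 2 ≤ 1 / 2 * (M ^ 2 * f q ^ 2) := by
    intro q
    have e2 : c q ^ 2 ≤ M ^ 2 := by
      rw [← sq_abs]
      exact pow_le_pow_left₀ (abs_nonneg _) (hc q) 2
    have e3 : (r ^ 2) ^ 2 ≤ (1 / 4) ^ 2 := pow_le_pow_left₀ (sq_nonneg r) hr2 2
    calc (r ^ 2 * c q * f q) ^ 2 = (r ^ 2) ^ 2 * (c q ^ 2 * f q ^ 2) := by ring
      _ ≤ (1 / 4) ^ 2 * (M ^ 2 * f q ^ 2) := by
          refine mul_le_mul e3 (mul_le_mul_of_nonneg_right e2 (sq_nonneg _)) (by positivity)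
            (by norm_num)
      _ ≤ 1 / 2 * (M ^ 2 * f q ^ 2) :=
          mul_le_mul_of_nonneg_right (by norm_num) (by positivity)
  have h4 : ∀ q, (∑ l, r * b l q * (A q l + τ * α l * f q + γ * x l * f q)
      + r ^ 2 * c q * f q) ^ 2 ≤ (2 * n * (1 + γ ^ 2) + 1) *
        (ε ^ 2 * (∑ l, A q l ^ 2 + τ ^ 2 * U * f q ^ 2 + f q ^ 2) + M ^ 2 * f q ^ 2) := by
    intro q
    have e1 := h2 q
    have e2 := h3 q
    have e3 : (∑ l, r * b l q * (A q l + τ * α l * f q + γ * x l * f q)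
        + r ^ 2 * c q * f q) ^ 2 ≤
        2 * (∑ l, r * b l q * (A q l + τ * α l * f q + γ * x l * f q)) ^ 2
          + 2 * (r ^ 2 * c q * f q) ^ 2 := by
      nlinarith [sq_nonneg (∑ l, r * b l q * (A q l + τ * α l * f q + γ * x l * f q)
        - r ^ 2 * c q * f q)]
    have k3 : 0 ≤ ∑ l, A q l ^ 2 := Finset.sum_nonneg fun l _ => sq_nonneg _
    have k5 : 0 ≤ ε ^ 2 * (∑ l, A q l ^ 2 + τ ^ 2 * U * f q ^ 2 + f q ^ 2) := by positivity
    have k6 : 0 ≤ M ^ 2 * f q ^ 2 := by positivity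
    have k7 : 0 ≤ (2 * n * (1 + γ ^ 2)) * (M ^ 2 * f q ^ 2) := by positivity
    calc _ ≤ 2 * (n * (1 + γ ^ 2) * (ε ^ 2 * (∑ l, A q l ^ 2 + τ ^ 2 * U * f q ^ 2 + f q ^ 2)))
          + 2 * (1 / 2 * (M ^ 2 * f q ^ 2)) := by linarith
      _ ≤ _ := by linarith
  have h5 : (∑ q, (∑ l, r * b l q * (A q l + τ * α l * f q + γ * x l * f q)
      + r ^ 2 * c q * f q)) ^ 2 ≤ m * ∑ q, (∑ l, r * b l q * (A q l + τ * α l * f q
        + γ * x l * f q) + r ^ 2 * c q * f q) ^ 2 := by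
    have := sq_sum_le_card_mul_sum_sq (s := (Finset.univ : Finset (Fin m)))
      (f := fun q => ∑ l, r * b l q * (A q l + τ * α l * f q + γ * x l * f q)
        + r ^ 2 * c q * f q)
    simpa using this
  refine h5.trans ?_
  rw [mul_assoc (m : ℝ)]
  refine mul_le_mul_of_nonneg_left ?_ (Nat.cast_nonneg m)
  rw [Finset.mul_sum]
  exact Finset.sum_le_sum fun q _ => h4 q

/-- The lower order part of `PxG`. -/
def Ex (e : Co n m) (τ : ℝ) (f : Fin m → VV n → ℝ) (p : Fin m) (z : VV n) : ℝ :=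
  ∑ q, (∑ l, rr z.1 * e.b l z.1 p q *
    (Ax l (f q) z + τ * al l z * f q z + ga n * z.1 l * f q z) + rr z.1 ^ 2 * e.c z.1 p q * f q z)

/-- The lower order part of `PyG`. -/
def Ey (e : Co n m) (τ : ℝ) (f : Fin m → VV n → ℝ) (p : Fin m) (z : VV n) : ℝ :=
  ∑ q, (∑ l, rr z.2 * e.b l z.2 p q *
    (By l (f q) z + τ * be l z * f q z + ga n * z.2 l * f q z) + rr z.2 ^ 2 * e.c z.2 p q * f q z)

theorem PxG_eq (s : MF n) (e : Co n m) (τ : ℝ) (f : Fin m → VV n → ℝ) (p : Fin m) (z : VV n) :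
    PxG s e τ f p z = Px s τ (f p) z + Ex e τ f p z := rfl

theorem PyG_eq (s : MF n) (e : Co n m) (τ : ℝ) (f : Fin m → VV n → ℝ) (p : Fin m) (z : VV n) :
    PyG s e τ f p z = Py s τ (f p) z + Ey e τ f p z := rfl

/-- Bounded smooth coefficients, order zero. -/
structure CB (ε M : ℝ) (e : Co n m) : Prop where
  sb : ∀ l p q, ContDiff ℝ ∞ (fun x => e.b l x p q)
  sc : ∀ p q, ContDiff ℝ ∞ (fun x => e.c x p q)
  bb : ∀ l p q x, |e.b l x p q| ≤ ε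
  bc : ∀ p q x, |e.c x p q| ≤ M

theorem Cl0 {k : ℕ} {ε : ℝ} {f : V n → ℝ} (h : Cl k ε f) (x : V n) : |f x| ≤ ε := by
  have := h 0 (Nat.zero_le _) x
  rwa [norm_iteratedFDeriv_zero, Real.norm_eq_abs] at this

theorem Cl1 {k : ℕ} {ε : ℝ} {f : V n → ℝ} (hk : 1 ≤ k) (h : Cl k ε f) (x : V n) (i : Fin n) :
    |pd i f x| ≤ ε := by
  have h1 := h 1 hk x
  rw [norm_iteratedFDeriv_one] at h1
  have h2 : |pd i f x| ≤ ‖fderiv ℝ f x‖ * ‖(Pi.single i 1 : V n)‖ := by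
    have := (fderiv ℝ f x).le_opNorm (Pi.single i 1)
    rwa [Real.norm_eq_abs] at this
  have h3 : ‖(Pi.single i 1 : V n)‖ ≤ 1 := by
    rw [Pi.norm_single]
    simp
  calc |pd i f x| ≤ ‖fderiv ℝ f x‖ * ‖(Pi.single i 1 : V n)‖ := h2
    _ ≤ ‖fderiv ℝ f x‖ * 1 := mul_le_mul_of_nonneg_left h3 (norm_nonneg _)
    _ ≤ ε := by rw [mul_one]; exact h1

theorem CB.of {k : ℕ} {ε M : ℝ} {e : Co n m} (h : CoOk k ε M e) : CB ε M e :=
  ⟨h.sb, h.sc, fun l p q x => Cl0 (h.bb l p q) x, fun p q x => Cl0 (h.bc p q) x⟩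

theorem contDiff_pd {f : V n → ℝ} (hf : ContDiff ℝ ∞ f) (i : Fin n) :
    ContDiff ℝ ∞ (pd i f) := by
  have h : ContDiff ℝ ∞ (fderiv ℝ f) := hf.fderiv_right (by simp)
  exact h.clm_apply contDiff_const

theorem CB.adj {k : ℕ} {ε M : ℝ} {e : Co n m} (hk : 1 ≤ k) (h : CoOk k ε M e) :
    CB ε (M + n * ε) (adj e) := by
  refine ⟨fun l p q => ?_, fun p q => ?_, fun l p q x => ?_, fun p q x => ?_⟩
  · have : (fun x => (HY.adj e).b l x p q) = fun x => -e.b l x q p := rfl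
    rw [this]
    exact (h.sb l q p).neg
  · have : (fun x => (HY.adj e).c x p q) =
        fun x => e.c x q p - ∑ l, pd l (fun y => e.b l y q p) x := rfl
    rw [this]
    exact (h.sc q p).sub (ContDiff.sum fun l _ => contDiff_pd (h.sb l q p) l)
  · have : (HY.adj e).b l x p q = -e.b l x q p := rfl
    rw [this, abs_neg]
    exact Cl0 (h.bb l q p) x
  · have : (HY.adj e).c x p q = e.c x q p - ∑ l, pd l (fun y => e.b l y q p) x := rfl
    rw [this]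
    refine (abs_sub _ _).trans (add_le_add (Cl0 (h.bc q p) x) ?_)
    refine (Finset.abs_sum_le_sum_abs _ _).trans ?_
    refine (Finset.sum_le_sum fun l _ => Cl1 hk (h.bb l q p) x l).trans ?_
    simp

/-! ### Class `CZ` for the lower order terms -/

section CZ

variable {K : Set (VV n)} {f : Fin m → VV n → ℝ} {e : Co n m} {ε M : ℝ}

theorem CZ.Ex (hK : IsClosed K) (he : CB ε M e) (hf : ∀ q, CZ K (f q)) (τ : ℝ) (p : Fin m) :
    CZ K (Ex e τ f p) := by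
  unfold H16.Ex
  refine CZ.sum _ fun q _ => CZ.add (CZ.sum _ fun l _ => ?_) ?_
  · have hb : SU (fun z : VV n => rr z.1 * e.b l z.1 p q) :=
      su_r1.mul (((he.sb l p q).comp contDiff_fst).contDiffOn)
    refine CZ.mul_left (CZ.add (CZ.add ((hf q).Ax hK l) ?_) ?_) hb
    · exact (hf q).mul_left (contDiffOn_const.mul (su_al l))
    · exact (hf q).mul_left (contDiffOn_const.mul (su_x l))
  · exact (hf q).mul_left ((su_r1.pow 2).mul (((he.sc p q).comp contDiff_fst).contDiffOn))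

theorem CZ.Ey (hK : IsClosed K) (he : CB ε M e) (hf : ∀ q, CZ K (f q)) (τ : ℝ) (p : Fin m) :
    CZ K (Ey e τ f p) := by
  unfold H16.Ey
  refine CZ.sum _ fun q _ => CZ.add (CZ.sum _ fun l _ => ?_) ?_
  · have hb : SU (fun z : VV n => rr z.2 * e.b l z.2 p q) :=
      su_r2.mul (((he.sb l p q).comp contDiff_snd).contDiffOn)
    refine CZ.mul_left (CZ.add (CZ.add ((hf q).By hK l) ?_) ?_) hb
    · exact (hf q).mul_left (contDiffOn_const.mul (su_be l))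
    · exact (hf q).mul_left (contDiffOn_const.mul (su_y l))
  · exact (hf q).mul_left ((su_r2.pow 2).mul (((he.sc p q).comp contDiff_snd).contDiffOn))

/-- The constant in the bound of the lower order terms. -/
def cE (n m : ℕ) : ℝ := m * (2 * n * (1 + ga n ^ 2) + 1)

theorem cE_nonneg (n m : ℕ) : 0 ≤ cE n m := by unfold cE; positivity

theorem Ex_bound (he : CB ε M e) (τ : ℝ) (p : Fin m) {z : VV n}
    (hz : z ∈ Un n) :
    Ex e τ f p z ^ 2 ≤ cE n m * ∑ q, (ε ^ 2 * Fo τ (f q) z + M ^ 2 * f q z ^ 2) := by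
  have h := lot_bound (rr z.1) (rr_pos hz.1).le (rr_le z.1) (fun l q => e.b l z.1 p q)
    (fun q => e.c z.1 p q) (fun q l => Ax l (f q) z) (fun l => al l z) (fun l => z.1 l)
    (fun q => f q z) τ (ga n) ε M (uu z ^ 2 - 1) (fun l q => he.bb l p q z.1)
    (fun q => he.bc p q z.1) (sum_al_sq hz) (by
      rw [sum_xx]
      have := r1_pos hz
      linarith)
  refine (show _ ≤ _ from h).trans ?_
  refine mul_le_mul_of_nonneg_left ?_ (cE_nonneg n m)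
  refine Finset.sum_le_sum fun q _ => ?_
  have hB : 0 ≤ ∑ i, By i (f q) z ^ 2 := Finset.sum_nonneg fun i _ => sq_nonneg _
  have : ∑ l, Ax l (f q) z ^ 2 + τ ^ 2 * (uu z ^ 2 - 1) * f q z ^ 2 + f q z ^ 2 ≤
      Fo τ (f q) z := by
    unfold Fo g2
    linarith
  have h2 := mul_le_mul_of_nonneg_left this (sq_nonneg ε)
  linarith

theorem Ey_bound (he : CB ε M e) (τ : ℝ) (p : Fin m) {z : VV n}
    (hz : z ∈ Un n) :
    Ey e τ f p z ^ 2 ≤ cE n m * ∑ q, (ε ^ 2 * Fo τ (f q) z + M ^ 2 * f q z ^ 2) := by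
  have h := lot_bound (rr z.2) (rr_pos hz.2).le (rr_le z.2) (fun l q => e.b l z.2 p q)
    (fun q => e.c z.2 p q) (fun q l => By l (f q) z) (fun l => be l z) (fun l => z.2 l)
    (fun q => f q z) τ (ga n) ε M (uu z ^ 2 - 1) (fun l q => he.bb l p q z.2)
    (fun q => he.bc p q z.2) (sum_be_sq hz) (by
      rw [sum_yy]
      have := r2_pos hz
      linarith)
  refine (show _ ≤ _ from h).trans ?_
  refine mul_le_mul_of_nonneg_left ?_ (cE_nonneg n m)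
  refine Finset.sum_le_sum fun q _ => ?_
  have hB : 0 ≤ ∑ i, Ax i (f q) z ^ 2 := Finset.sum_nonneg fun i _ => sq_nonneg _
  have : ∑ l, By l (f q) z ^ 2 + τ ^ 2 * (uu z ^ 2 - 1) * f q z ^ 2 + f q z ^ 2 ≤
      Fo τ (f q) z := by
    unfold Fo g2
    linarith
  have h2 := mul_le_mul_of_nonneg_left this (sq_nonneg ε)
  linarith

end CZ

theorem Fo_neg_tau (τ : ℝ) (f : VV n → ℝ) (z : VV n) : Fo (-τ) f z = Fo τ f z := by
  unfold Fo
  ring

/-- The parallelogram law. -/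
theorem Fo_par {f g : VV n → ℝ} (hf : SU f) (hg : SU g) (τ : ℝ) {z : VV n} (hz : z ∈ Un n) :
    Fo τ f z + Fo τ g z = 1 / 2 * (Fo τ (fun z => f z + g z) z + Fo τ (fun z => f z - g z) z) := by
  have hA1 : ∀ i, Ax i (fun z => f z + g z) z = Ax i f z + Ax i g z := fun i => by
    rw [Ax_eq, Dr_add hf hg hz]
  have hA2 : ∀ i, Ax i (fun z => f z - g z) z = Ax i f z - Ax i g z := fun i => by
    rw [Ax_eq, Dr_sub hf hg hz]
  have hB1 : ∀ i, By i (fun z => f z + g z) z = By i f z + By i g z := fun i => by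
    rw [By_eq, Dr_add hf hg hz]
  have hB2 : ∀ i, By i (fun z => f z - g z) z = By i f z - By i g z := fun i => by
    rw [By_eq, Dr_sub hf hg hz]
  unfold Fo g2
  simp only [hA1, hA2, hB1, hB2, add_sq, sub_sq, Finset.sum_add_distrib, Finset.sum_sub_distrib]
  ring

theorem EE_sum {ι : Type} (t : Finset ι) {K : Set (VV n)} (hK : IsCompact K) (hKU : K ⊆ Un n)
    {F : ι → VV n → ℝ} (h : ∀ i ∈ t, CZ K (F i)) :
    EE (fun z => ∑ i ∈ t, F i z) = ∑ i ∈ t, EE (F i) := by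
  unfold EE
  rw [← integral_finset_sum t fun i hi => (h i hi).int hK hKU]
  congr 1
  ext z
  rw [Finset.mul_sum]

/-- The perturbation is bounded. -/
theorem EE_pert {K : Set (VV n)} (hK : IsCompact K) (hKU : K ⊆ Un n) {e₁ e₂ e₁' e₂' : Co n m}
    {ε M τ : ℝ} (he₁ : CB ε M e₁) (he₂ : CB ε M e₂) (he₁' : CB ε M e₁') (he₂' : CB ε M e₂')
    {a₁ a₂ : Fin m → VV n → ℝ} (h1 : ∀ p, CZ K (a₁ p)) (h2 : ∀ p, CZ K (a₂ p)) (hτ : 1 ≤ τ)
    (hh : ∀ p, 0 ≤ EE (Hm (fun z => a₁ p z - a₂ p z))) (p : Fin m) :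
    EE (fun z => (Ex e₁' (-τ) a₁ p z + Ey e₂' (-τ) a₂ p z) ^ 2
      + (Ey e₂ τ a₁ p z - Ex e₁ τ a₂ p z) ^ 2) ≤ 2 * cE n m * (5 * ε ^ 2 + M ^ 2 / τ) *
        ∑ q, (EE (Nb τ (fun z => a₁ q z + a₂ q z)) + EE (Nc τ (fun z => a₁ q z - a₂ q z))) := by
  have hcl := hK.isClosed
  have hτ0 : 0 < τ := by linarith
  have hcE := cE_nonneg n m
  have hbZ : ∀ q, CZ K (fun z => a₁ q z + a₂ q z) := fun q => (h1 q).add (h2 q)
  have hcZ : ∀ q, CZ K (fun z => a₁ q z - a₂ q z) := fun q => (h1 q).sub (h2 q)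
  have hpt : ∀ z ∈ Un n, (Ex e₁' (-τ) a₁ p z + Ey e₂' (-τ) a₂ p z) ^ 2
      + (Ey e₂ τ a₁ p z - Ex e₁ τ a₂ p z) ^ 2 ≤ 2 * cE n m * ∑ q,
        (ε ^ 2 * (Fo τ (fun z => a₁ q z + a₂ q z) z + Fo τ (fun z => a₁ q z - a₂ q z) z)
          + M ^ 2 * ((a₁ q z + a₂ q z) ^ 2 + (a₁ q z - a₂ q z) ^ 2)) := by
    intro z hz
    have k1 := Ex_bound (f := a₁) he₁' (-τ) p hz
    have k2 := Ey_bound (f := a₂) he₂' (-τ) p hz
    have k3 := Ey_bound (f := a₁) he₂ τ p hz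
    have k4 := Ex_bound (f := a₂) he₁ τ p hz
    simp only [Fo_neg_tau] at k1 k2
    have e : 2 * cE n m * ∑ q,
        (ε ^ 2 * (Fo τ (fun z => a₁ q z + a₂ q z) z + Fo τ (fun z => a₁ q z - a₂ q z) z)
          + M ^ 2 * ((a₁ q z + a₂ q z) ^ 2 + (a₁ q z - a₂ q z) ^ 2)) =
        4 * (cE n m * ∑ q, (ε ^ 2 * Fo τ (a₁ q) z + M ^ 2 * a₁ q z ^ 2)
          + cE n m * ∑ q, (ε ^ 2 * Fo τ (a₂ q) z + M ^ 2 * a₂ q z ^ 2)) := by
      have e3 : ∀ q, (ε ^ 2 * (Fo τ (fun z => a₁ q z + a₂ q z) z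
          + Fo τ (fun z => a₁ q z - a₂ q z) z)
          + M ^ 2 * ((a₁ q z + a₂ q z) ^ 2 + (a₁ q z - a₂ q z) ^ 2)) =
          2 * ((ε ^ 2 * Fo τ (a₁ q) z + M ^ 2 * a₁ q z ^ 2)
            + (ε ^ 2 * Fo τ (a₂ q) z + M ^ 2 * a₂ q z ^ 2)) := by
        intro q
        have := Fo_par (h1 q).su (h2 q).su τ hz
        have e2 : Fo τ (fun z => a₁ q z + a₂ q z) z + Fo τ (fun z => a₁ q z - a₂ q z) z =
            2 * (Fo τ (a₁ q) z + Fo τ (a₂ q) z) := by linarith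
        rw [e2]
        ring
      rw [Finset.sum_congr rfl fun q _ => e3 q, ← Finset.mul_sum, Finset.sum_add_distrib]
      ring
    rw [e]
    nlinarith [sq_nonneg (Ex e₁' (-τ) a₁ p z - Ey e₂' (-τ) a₂ p z),
      sq_nonneg (Ey e₂ τ a₁ p z + Ex e₁ τ a₂ p z)]
  have zB : ∀ q, CZ K (fun z =>
      (ε ^ 2 * (Fo τ (fun z => a₁ q z + a₂ q z) z + Fo τ (fun z => a₁ q z - a₂ q z) z)
          + M ^ 2 * ((a₁ q z + a₂ q z) ^ 2 + (a₁ q z - a₂ q z) ^ 2))) := fun q =>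
    ((((hbZ q).Fo hcl τ).add ((hcZ q).Fo hcl τ)).cmul _).add (((hbZ q).sq.add (hcZ q).sq).cmul _)
  have zL : CZ K (fun z => (Ex e₁' (-τ) a₁ p z + Ey e₂' (-τ) a₂ p z) ^ 2
      + (Ey e₂ τ a₁ p z - Ex e₁ τ a₂ p z) ^ 2) :=
    ((CZ.Ex hcl he₁' h1 (-τ) p).add (CZ.Ey hcl he₂' h2 (-τ) p)).sq.add
      ((CZ.Ey hcl he₂ h1 τ p).sub (CZ.Ex hcl he₁ h2 τ p)).sq
  have zS := CZ.sum Finset.univ fun q _ => zB q
  have eS := EE_sum (Finset.univ : Finset (Fin m)) hK hKU (fun q _ => zB q)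
  refine (EE_mono hK hKU zL (zS.cmul _) hpt).trans ?_
  rw [EE_cmul, eS, mul_assoc (2 * cE n m)]
  refine mul_le_mul_of_nonneg_left ?_ (by linarith)
  rw [Finset.mul_sum]
  refine Finset.sum_le_sum fun q _ => ?_
  rw [EE_add hK hKU ((((hbZ q).Fo hcl τ).add ((hcZ q).Fo hcl τ)).cmul _)
    (((hbZ q).sq.add (hcZ q).sq).cmul _), EE_cmul, EE_cmul,
    EE_add hK hKU ((hbZ q).Fo hcl τ) ((hcZ q).Fo hcl τ), EE_add hK hKU (hbZ q).sq (hcZ q).sq]
  have l1 := Fo_b hK hKU (hbZ q) hτ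
  obtain ⟨l2, l3⟩ := Fo_c hK hKU (hcZ q) hτ (hh q)
  have l4 : EE (fun z => (a₁ q z + a₂ q z) ^ 2) ≤ 1 / τ * EE (Nb τ (fun z => a₁ q z + a₂ q z)) := by
    refine le_trans ?_ l1
    refine EE_mono hK hKU (hbZ q).sq ((hbZ q).Fo hcl τ) fun z hz => ?_
    unfold Fo
    have g1 := g2_nonneg (fun z => a₁ q z + a₂ q z) z
    have g2 : 0 ≤ uu z ^ 2 - 1 := by
      have : 1 ≤ uu z ^ 2 := one_le_pow₀ (one_le_uu hz)
      linarith
    have g3 : 0 ≤ τ ^ 2 * (uu z ^ 2 - 1) * (a₁ q z + a₂ q z) ^ 2 := by positivity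
    linarith
  have hNb : 0 ≤ EE (Nb τ (fun z => a₁ q z + a₂ q z)) := by
    have : 0 ≤ EE (fun z => (a₁ q z + a₂ q z) ^ 2) := EE_nonneg fun z _ => sq_nonneg _
    have h3 := this.trans l4
    by_contra hneg
    push Not at hneg
    have := mul_neg_of_pos_of_neg (show 0 < 1 / τ by positivity) hneg
    linarith
  have hNc : 0 ≤ EE (Nc τ (fun z => a₁ q z - a₂ q z)) := by
    have : 0 ≤ EE (fun z => (a₁ q z - a₂ q z) ^ 2) := EE_nonneg fun z _ => sq_nonneg _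
    have h3 := this.trans l3
    by_contra hneg
    push Not at hneg
    have := mul_neg_of_pos_of_neg (show 0 < 1 / τ by positivity) hneg
    linarith
  have hτ1 : 1 / τ ≤ 5 := by
    rw [div_le_iff₀ hτ0]
    linarith
  have m1 : 1 / τ * EE (Nb τ (fun z => a₁ q z + a₂ q z)) ≤
      5 * EE (Nb τ (fun z => a₁ q z + a₂ q z)) := mul_le_mul_of_nonneg_right hτ1 hNb
  have n1 := mul_le_mul_of_nonneg_left (add_le_add (l1.trans m1) l2) (sq_nonneg ε)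
  have n2 := mul_le_mul_of_nonneg_left (add_le_add l4 l3) (sq_nonneg M)
  refine (add_le_add n1 n2).trans (le_of_eq ?_)
  ring

/-- (ESTG) from the strong scalar estimate. -/
theorem rowESTG : RowESTs → RowEGAP → RowESTG := by
  intro hs hEGAP n m hn
  obtain ⟨C, ε₀, τ₀, hC, hε₀, hτ₀, h⟩ := hs n hn
  -- the constant of the perturbation
  set D : ℝ := 4 * (C + 1) * (m + 1) * (cE n m + 1) with hD
  have hcE := cE_nonneg n m
  have hm0 : (0 : ℝ) ≤ m := Nat.cast_nonneg m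
  have hD0 : 0 < D := by positivity
  have hD1 : 1 ≤ D := by
    have h1 : (1 : ℝ) ≤ C + 1 := by linarith
    have h2 : (1 : ℝ) ≤ m + 1 := by linarith
    have h3 : (1 : ℝ) ≤ cE n m + 1 := by linarith
    have h4 : (1 : ℝ) ≤ (C + 1) * (m + 1) := by nlinarith
    have h5 : (1 : ℝ) ≤ (C + 1) * (m + 1) * (cE n m + 1) := by nlinarith
    rw [hD]
    linarith
  refine ⟨4 * C, min ε₀ (1 / (20 * D)), by positivity, by positivity, ?_⟩
  intro M hM
  set M' : ℝ := M + n with hM'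
  have hM'0 : 0 < M' := by
    have : (0 : ℝ) ≤ n := Nat.cast_nonneg n
    linarith
  refine ⟨max τ₀ (max 1 (4 * D * M' ^ 2)), by positivity, ?_⟩
  intro s₁ s₂ e₁ e₂ hs₁ hs₂ he₁ he₂ η τ hη0 hη hτ hτη a₁ a₂ ha₁ ha₂
  set ε : ℝ := min ε₀ (1 / (20 * D)) with hε
  have hε0 : 0 < ε := by rw [hε]; positivity
  have hε1 : ε ≤ 1 / (20 * D) := min_le_right _ _
  have hε2 : ε ≤ 1 := by
    refine hε1.trans ?_
    rw [div_le_one (by positivity)]
    linarith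
  have hτa : τ₀ ≤ τ := (le_max_left _ _).trans hτ
  have hτb : 1 ≤ τ := (le_max_left _ _).trans ((le_max_right _ _).trans hτ)
  have hτc : 4 * D * M' ^ 2 ≤ τ := (le_max_right _ _).trans ((le_max_right _ _).trans hτ)
  have hτ0 : 0 < τ := by linarith
  set K : Set (VV n) := (⋃ p, tsupport (a₁ p)) ∪ ⋃ p, tsupport (a₂ p) with hKdef
  have hK : IsCompact K :=
    (isCompact_iUnion fun p => (ha₁ p).2.1.isCompact).union
      (isCompact_iUnion fun p => (ha₂ p).2.1.isCompact)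
  have hKU : K ⊆ Un n :=
    union_subset (iUnion_subset fun p => (ha₁ p).2.2) (iUnion_subset fun p => (ha₂ p).2.2)
  have hcl := hK.isClosed
  have h1 : ∀ p, CZ K (a₁ p) := fun p =>
    CZ.of_TF (ha₁ p) ((subset_iUnion (fun p => tsupport (a₁ p)) p).trans subset_union_left)
  have h2 : ∀ p, CZ K (a₂ p) := fun p =>
    CZ.of_TF (ha₂ p) ((subset_iUnion (fun p => tsupport (a₂ p)) p).trans subset_union_right)
  have hcTF : ∀ p, TF (Un n) (fun z => a₁ p z - a₂ p z) := fun p =>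
    ⟨(ha₁ p).1.sub (ha₂ p).1, (ha₁ p).2.1.sub (ha₂ p).2.1,
      (tsupport_sub (a₁ p) (a₂ p)).trans (union_subset (ha₁ p).2.2 (ha₂ p).2.2)⟩
  have hh : ∀ p, 0 ≤ EE (Hm (fun z => a₁ p z - a₂ p z)) := fun p =>
    EE_Hm_nonneg hEGAP (by omega) (hcTF p)
  have hbZ : ∀ q, CZ K (fun z => a₁ q z + a₂ q z) := fun q => (h1 q).add (h2 q)
  have hcZ : ∀ q, CZ K (fun z => a₁ q z - a₂ q z) := fun q => (h1 q).sub (h2 q)
  have hMM : M ≤ M' := by
    have : (0 : ℝ) ≤ n := Nat.cast_nonneg n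
    linarith
  have hMn : M + n * ε ≤ M' := by
    have : (n : ℝ) * ε ≤ n * 1 := mul_le_mul_of_nonneg_left hε2 (Nat.cast_nonneg n)
    linarith
  have cb : ∀ {e : Co n m}, CoOk 3 ε M e → CB ε M' e := fun he =>
    ⟨he.sb, he.sc, fun l p q x => Cl0 (he.bb l p q) x, fun p q x => (Cl0 (he.bc p q) x).trans hMM⟩
  have cb' : ∀ {e : Co n m}, CoOk 3 ε M e → CB ε M' (adj e) := fun he => by
    have := CB.adj (by norm_num) he
    exact ⟨this.sb, this.sc, this.bb, fun p q x => (this.bc p q x).trans hMn⟩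
  have hpert := fun p => EE_pert hK hKU (cb he₁) (cb he₂) (cb' he₁) (cb' he₂) h1 h2 hτb hh p
  set Nn : ℝ := ∑ q, (EE (Nb τ (fun z => a₁ q z + a₂ q z))
    + EE (Nc τ (fun z => a₁ q z - a₂ q z))) with hNn
  -- step A
  have hA : Nn ≤ C * ∑ p, TT s₁ s₂ τ (a₁ p) (a₂ p) := by
    rw [hNn, Finset.mul_sum]
    exact Finset.sum_le_sum fun p _ => h s₁ s₂ (TS_monoE (min_le_left _ _) hs₁)
      (TS_monoE (min_le_left _ _) hs₂) η τ hη0 hη hτa (hτη.trans (min_le_left _ _)) (a₁ p) (a₂ p)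
      (ha₁ p) (ha₂ p)
  -- step B
  have hB : ∀ p, TT s₁ s₂ τ (a₁ p) (a₂ p) ≤
      2 * EE (fun z => (PxG s₁ (adj e₁) (-τ) a₁ p z + PyG s₂ (adj e₂) (-τ) a₂ p z) ^ 2
        + (PyG s₂ e₂ τ a₁ p z - PxG s₁ e₁ τ a₂ p z) ^ 2)
      + 2 * EE (fun z => (Ex (adj e₁) (-τ) a₁ p z + Ey (adj e₂) (-τ) a₂ p z) ^ 2
        + (Ey e₂ τ a₁ p z - Ex e₁ τ a₂ p z) ^ 2) := by
    intro p
    have x1 := (h1 p).Px hcl hs₁.sm (-τ)
    have x2 := (h2 p).Py hcl hs₂.sm (-τ)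
    have x3 := (h1 p).Py hcl hs₂.sm τ
    have x4 := (h2 p).Px hcl hs₁.sm τ
    have y1 := CZ.Ex hcl (cb' he₁) h1 (-τ) p
    have y2 := CZ.Ey hcl (cb' he₂) h2 (-τ) p
    have y3 := CZ.Ey hcl (cb he₂) h1 τ p
    have y4 := CZ.Ex hcl (cb he₁) h2 τ p
    have z1 : CZ K (fun z => (PxG s₁ (adj e₁) (-τ) a₁ p z + PyG s₂ (adj e₂) (-τ) a₂ p z) ^ 2
        + (PyG s₂ e₂ τ a₁ p z - PxG s₁ e₁ τ a₂ p z) ^ 2) := by
      simp only [PxG_eq, PyG_eq]
      exact ((x1.add y1).add (x2.add y2)).sq.add ((x3.add y3).sub (x4.add y4)).sq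
    have z2 := ((y1.add y2).sq.add (y3.sub y4).sq)
    rw [← EE_cmul, ← EE_cmul, ← EE_add hK hKU (z1.cmul 2) (z2.cmul 2)]
    refine EE_mono hK hKU ((x1.add x2).sq.add (x3.sub x4).sq) ((z1.cmul 2).add (z2.cmul 2)) ?_
    intro z _
    simp only [PxG_eq, PyG_eq]
    nlinarith [sq_nonneg (Px s₁ (-τ) (a₁ p) z + Py s₂ (-τ) (a₂ p) z
        + 2 * (Ex (adj e₁) (-τ) a₁ p z + Ey (adj e₂) (-τ) a₂ p z)),
      sq_nonneg (Py s₂ τ (a₁ p) z - Px s₁ τ (a₂ p) z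
        + 2 * (Ey e₂ τ a₁ p z - Ex e₁ τ a₂ p z))]
  set TG : ℝ := ∑ p, EE (fun z => (PxG s₁ (adj e₁) (-τ) a₁ p z
    + PyG s₂ (adj e₂) (-τ) a₂ p z) ^ 2 + (PyG s₂ e₂ τ a₁ p z - PxG s₁ e₁ τ a₂ p z) ^ 2) with hTG
  have hNn0 : 0 ≤ Nn := by
    rw [hNn]
    refine Finset.sum_nonneg fun q _ => add_nonneg ?_ ?_
    · have h3 := EE_Nb_low hK hKU (hbZ q) hτ0
      refine le_trans (EE_nonneg fun z _ => by positivity) h3
    · have h3 := (EE_Nc_low hK hKU (hcZ q) hτ0 (hh q)).1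
      refine le_trans (EE_nonneg fun z _ => by positivity) h3
  -- step D
  have hD2 : ∑ p, TT s₁ s₂ τ (a₁ p) (a₂ p) ≤
      2 * TG + 2 * (m * (2 * cE n m * (5 * ε ^ 2 + M' ^ 2 / τ) * Nn)) := by
    calc ∑ p, TT s₁ s₂ τ (a₁ p) (a₂ p)
        ≤ ∑ p, (2 * EE (fun z => (PxG s₁ (adj e₁) (-τ) a₁ p z
            + PyG s₂ (adj e₂) (-τ) a₂ p z) ^ 2 + (PyG s₂ e₂ τ a₁ p z - PxG s₁ e₁ τ a₂ p z) ^ 2)
          + 2 * (2 * cE n m * (5 * ε ^ 2 + M' ^ 2 / τ) * Nn)) := by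
          refine Finset.sum_le_sum fun p _ => (hB p).trans ?_
          have := hpert p
          linarith
      _ = _ := by
          rw [Finset.sum_add_distrib, ← Finset.mul_sum, hTG, Finset.sum_const, Finset.card_univ,
            Fintype.card_fin, nsmul_eq_mul]
          ring
  have hδ : 5 * ε ^ 2 + M' ^ 2 / τ ≤ 1 / (2 * D) := by
    have k1 : 5 * ε ^ 2 ≤ 1 / (4 * D) := by
      have : ε ^ 2 ≤ 1 * (1 / (20 * D)) := by
        rw [pow_two]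
        exact mul_le_mul hε2 hε1 hε0.le (by norm_num)
      calc 5 * ε ^ 2 ≤ 5 * (1 * (1 / (20 * D))) := by linarith
        _ = 1 / (4 * D) := by field_simp; ring
    have k2 : M' ^ 2 / τ ≤ 1 / (4 * D) := by
      rw [div_le_div_iff₀ hτ0 (by positivity)]
      linarith
    calc _ ≤ 1 / (4 * D) + 1 / (4 * D) := add_le_add k1 k2
      _ = 1 / (2 * D) := by field_simp; ring
  have hfin : Nn ≤ 4 * C * TG := by
    have k1 : C * (2 * (m * (2 * cE n m * (5 * ε ^ 2 + M' ^ 2 / τ) * Nn))) ≤ 1 / 2 * Nn := by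
      have k2 : 4 * C * m * cE n m ≤ D := by
        rw [hD]
        have q1 : C * m * cE n m ≤ (C + 1) * (m + 1) * (cE n m + 1) := by
          gcongr <;> linarith
        linarith
      have k3 : 0 ≤ 4 * C * m * cE n m := by positivity
      have k4 : 4 * C * m * cE n m * (5 * ε ^ 2 + M' ^ 2 / τ) ≤ D * (1 / (2 * D)) :=
        mul_le_mul k2 hδ (by positivity) hD0.le
      have k5 : D * (1 / (2 * D)) = 1 / 2 := by field_simp
      rw [k5] at k4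
      have k6 := mul_le_mul_of_nonneg_right k4 hNn0
      linarith
    have k7 := hA.trans (mul_le_mul_of_nonneg_left hD2 hC.le)
    linarith
  -- the left side
  have hlow : ∑ p, ∫ z in Un n, th z * (τ ^ 2 * (a₁ p z + a₂ p z) ^ 2
      + τ * (a₁ p z - a₂ p z) ^ 2) ≤ Nn := by
    rw [hNn]
    refine Finset.sum_le_sum fun p _ => ?_
    have : EE (fun z => τ ^ 2 * (a₁ p z + a₂ p z) ^ 2 + τ * (a₁ p z - a₂ p z) ^ 2) ≤
        EE (Nb τ (fun z => a₁ p z + a₂ p z)) + EE (Nc τ (fun z => a₁ p z - a₂ p z)) := by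
      rw [EE_add hK hKU ((hbZ p).sq.cmul _) ((hcZ p).sq.cmul _)]
      exact add_le_add (EE_Nb_low hK hKU (hbZ p) hτ0) (EE_Nc_low hK hKU (hcZ p) hτ0 (hh p)).1
    exact this
  exact hlow.trans hfin

end Vale.Agent.P088.HY.H16
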