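import Vale.Agent.P088.R2.H16.Calc

/-!
# P088, two metrics near the flat one: averaging over small balls about the diagonal, weights
-/

open MeasureTheory Set
open scoped ContDiff Matrix

noncomputable section

namespace Vale.Agent.P088.HY.H16

open Vale.Agent.P088.LR Vale.Agent.P088.HY

variable {n : ℕ}

theorem mem_ball_pp {p : V n} {r : ℝ} {z : VV n} :
    z ∈ Metric.ball (p, p) r ↔ dist z.1 p < r ∧ dist z.2 p < r := by
  rw [← ball_prod_same]
  simp [Set.mem_prod, Metric.mem_ball]

/-- Averaging over the balls about the diagonal. -/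
theorem fub (r : ℝ) (hr : 0 < r) (B : Set (V n)) (hB : MeasurableSet B) (hBf : volume B < ⊤)
    (U : Set (VV n)) (hU : MeasurableSet U) (f g : VV n → ℝ)
    (hf : AEStronglyMeasurable f (volume.restrict U)) (hf0 : ∀ z, 0 ≤ f z)
    (hsub : ∀ p ∈ B, Metric.ball (p, p) r ⊆ U) (hg : IntegrableOn g U)
    (hg0 : ∀ z ∈ U, 0 ≤ g z)
    (hfg : ∀ p ∈ B, ∀ z ∈ Metric.ball (p, p) r, f z ≤ g z) :
    IntegrableOn (fun p => ∫ z in Metric.ball (p, p) r, f z) B ∧
      ∫ p in B, ∫ z in Metric.ball (p, p) r, f z ≤ (2 * r) ^ n * ∫ z in U, g z := by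
  classical
  have : IsFiniteMeasure (volume.restrict B) := ⟨by simpa using hBf⟩
  set S : Set (V n × VV n) := {q | q.2 ∈ Metric.ball (q.1, q.1) r} with hS
  have hSo : IsOpen S := by
    have : S = {q : V n × VV n | dist q.2.1 q.1 < r} ∩ {q | dist q.2.2 q.1 < r} := by
      ext q
      change q.2 ∈ Metric.ball (q.1, q.1) r ↔ _
      rw [mem_ball_pp]
      rfl
    rw [this]
    exact (isOpen_lt (by fun_prop) continuous_const).inter (isOpen_lt (by fun_prop) continuous_const)
  set G : V n × VV n → ℝ := S.indicator (fun q => f q.2) with hG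
  have hGm : AEStronglyMeasurable G ((volume.restrict B).prod (volume.restrict U)) :=
    (hf.comp_snd).indicator hSo.measurableSet
  have hG0 : ∀ q, 0 ≤ G q := by
    intro q
    rw [hG]
    exact indicator_nonneg (fun _ _ => hf0 _) q
  -- the slices
  have hslice : ∀ z, (fun p => G (p, z)) = (Metric.ball z.1 r ∩ Metric.ball z.2 r).indicator
      (fun _ => f z) := by
    intro z
    ext p
    have e : (p, z) ∈ S ↔ p ∈ Metric.ball z.1 r ∩ Metric.ball z.2 r := by
      rw [hS]
      change z ∈ Metric.ball (p, p) r ↔ _
      rw [mem_ball_pp, mem_inter_iff, Metric.mem_ball, Metric.mem_ball, dist_comm p z.1,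
        dist_comm p z.2]
    simp only [hG, indicator, e]
  have hint1 : ∀ z, Integrable (fun p => G (p, z)) (volume.restrict B) := by
    intro z
    rw [hslice z]
    exact (integrable_const _).indicator
      ((Metric.isOpen_ball.inter Metric.isOpen_ball).measurableSet)
  have hval : ∀ z ∈ U, ∫ p, G (p, z) ∂(volume.restrict B) ≤ (2 * r) ^ n * g z := by
    intro z hz
    by_cases hne : (B ∩ (Metric.ball z.1 r ∩ Metric.ball z.2 r)).Nonempty
    · obtain ⟨p, hpB, hp1, hp2⟩ := hne
      have hfz : f z ≤ g z := hfg p hpB z (mem_ball_pp.2 ⟨by rwa [dist_comm], by rwa [dist_comm]⟩)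
      rw [hslice z]
      rw [integral_indicator ((Metric.isOpen_ball.inter Metric.isOpen_ball).measurableSet)]
      rw [integral_const, smul_eq_mul]
      have hm : ((volume.restrict B).restrict (Metric.ball z.1 r ∩ Metric.ball z.2 r)).real univ
          ≤ (2 * r) ^ n := by
        have h1 : ((volume.restrict B).restrict (Metric.ball z.1 r ∩ Metric.ball z.2 r)) univ
            ≤ volume (Metric.ball z.1 r) := by
          rw [Measure.restrict_apply_univ]
          calc (volume.restrict B) (Metric.ball z.1 r ∩ Metric.ball z.2 r)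
              ≤ volume (Metric.ball z.1 r ∩ Metric.ball z.2 r) := Measure.restrict_apply_le _ _
            _ ≤ volume (Metric.ball z.1 r) := measure_mono inter_subset_left
        rw [Real.volume_pi_ball _ hr, Fintype.card_fin] at h1
        rw [Measure.real]
        exact ENNReal.toReal_le_of_le_ofReal (by positivity) h1
      exact mul_le_mul hm hfz (hf0 z) (by positivity)
    · have h0 : ∫ p, G (p, z) ∂(volume.restrict B) = 0 := by
        rw [hslice z, ← integral_indicator hB]
        rw [indicator_indicator]
        rw [not_nonempty_iff_eq_empty] at hne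
        rw [hne]
        simp
      rw [h0]
      have := hg0 z hz
      positivity
  have hGi : Integrable G ((volume.restrict B).prod (volume.restrict U)) := by
    rw [integrable_prod_iff' hGm]
    refine ⟨Filter.Eventually.of_forall hint1, ?_⟩
    refine Integrable.mono' (hg.const_mul ((2 * r) ^ n)) ?_ ?_
    · exact (hGm.norm.prod_swap).integral_prod_right'
    · refine (ae_restrict_iff' hU).2 (Filter.Eventually.of_forall fun z hz => ?_)
      have e : ∀ p, ‖G (p, z)‖ = G (p, z) := fun p => Real.norm_of_nonneg (hG0 _)
      simp only [e]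
      rw [Real.norm_of_nonneg (integral_nonneg fun p => hG0 _)]
      exact hval z hz
  have hball : ∀ p ∈ B, ∫ z in Metric.ball (p, p) r, f z = ∫ z in U, G (p, z) := by
    intro p hp
    have : (fun z => G (p, z)) = (Metric.ball (p, p) r).indicator f := by
      ext z
      rfl
    rw [this, integral_indicator Metric.isOpen_ball.measurableSet,
      Measure.restrict_restrict Metric.isOpen_ball.measurableSet,
      inter_eq_self_of_subset_left (hsub p hp)]
  constructor
  · refine (integrableOn_congr_fun hball hB).2 ?_
    exact hGi.integral_prod_left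
  · rw [setIntegral_congr_fun hB hball]
    have hsw : ∫ p in B, ∫ z in U, G (p, z) = ∫ z in U, ∫ p in B, G (p, z) :=
      integral_integral_swap (f := fun p z => G (p, z)) hGi
    rw [hsw, ← integral_const_mul]
    refine setIntegral_mono_on ?_ (hg.const_mul _) hU hval
    exact hGi.integral_prod_right

end Vale.Agent.P088.HY.H16
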