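import Vale.Agent.P088.R2.H16.Efin

/-!
# P088, perturbation of the basic estimate by lower order terms
-/

open MeasureTheory Set Filter
open scoped ContDiff Matrix Topology

noncomputable section

namespace Vale.Agent.P088.HY.H16

open Vale.Agent.P088.LR Vale.Agent.P088.HY

variable {n : ℕ}

/-- The size of first order terms with bounded coefficients: `|A f|² + |B f|² + τ²(u²-1) f² + f²`. -/
def Fo (τ : ℝ) (f : VV n → ℝ) (z : VV n) : ℝ :=
  g2 f z + τ ^ 2 * (uu z ^ 2 - 1) * f z ^ 2 + f z ^ 2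

theorem CZ.Fo {K : Set (VV n)} {f : VV n → ℝ} (hK : IsClosed K) (τ : ℝ) (hf : CZ K f) :
    CZ K (Fo τ f) := by
  unfold H16.Fo
  exact ((hf.g2 hK).add (hf.sq.mul_left (contDiffOn_const.mul
    ((su_uu.pow 2).sub contDiffOn_const)))).add hf.sq

theorem Fo_nonneg (τ : ℝ) (f : VV n → ℝ) {z : VV n} (hz : z ∈ Un n) : 0 ≤ Fo τ f z := by
  unfold Fo
  have h1 := g2_nonneg f z
  have h2 : 1 ≤ uu z ^ 2 := one_le_pow₀ (one_le_uu hz)
  have h3 : 0 ≤ uu z ^ 2 - 1 := by linarith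
  positivity

theorem uu_ps {z : VV n} (hz : z ∈ Un n) : uu z * ps z = uu z ^ 2 - 1 := by
  unfold ps
  have h1 := one_le_uu hz
  field_simp

/-- First order terms are small against `Nb`. -/
theorem Fo_b {K : Set (VV n)} (hK : IsCompact K) (hKU : K ⊆ Un n) {b : VV n → ℝ}
    (hb : CZ K b) {τ : ℝ} (hτ : 1 ≤ τ) : EE (Fo τ b) ≤ 1 / τ * EE (Nb τ b) := by
  have hτ0 : 0 < τ := by linarith
  rw [← EE_cmul]
  refine EE_mono hK hKU (hb.Fo hK.isClosed τ) ((hb.Nb hK.isClosed τ).cmul _) fun z hz => ?_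
  have hu := one_le_uu hz
  have hps := ps_nonneg hz
  have hg := g2_nonneg b z
  have hup := uu_ps hz
  unfold Fo Nb
  rw [← hup]
  have e : 1 / τ * (τ ^ 3 * (uu z ^ 2 * ps z) * b z ^ 2 + τ ^ 2 * uu z ^ 2 * b z ^ 2
      + τ * uu z * g2 b z) = τ ^ 2 * (uu z ^ 2 * ps z) * b z ^ 2 + τ * uu z ^ 2 * b z ^ 2
      + uu z * g2 b z := by
    field_simp
  rw [e]
  have hu2 : 1 ≤ uu z ^ 2 := one_le_pow₀ hu
  have r1 : g2 b z ≤ uu z * g2 b z := by nlinarith
  have r2 : τ ^ 2 * (uu z * ps z) * b z ^ 2 ≤ τ ^ 2 * (uu z ^ 2 * ps z) * b z ^ 2 := by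
    have : uu z * ps z ≤ uu z ^ 2 * ps z := by nlinarith
    gcongr
  have r3 : b z ^ 2 ≤ τ * uu z ^ 2 * b z ^ 2 := by
    have : 1 ≤ τ * uu z ^ 2 := by nlinarith
    nlinarith [sq_nonneg (b z)]
  linarith

/-- First order terms are bounded by `Nc`, zeroth order terms are small against `Nc`. -/
theorem Fo_c {K : Set (VV n)} (hK : IsCompact K) (hKU : K ⊆ Un n) {c : VV n → ℝ}
    (hc : CZ K c) {τ : ℝ} (hτ : 1 ≤ τ) (hh : 0 ≤ EE (Hm c)) :
    EE (Fo τ c) ≤ 5 * EE (Nc τ c) ∧ EE (fun z => c z ^ 2) ≤ 1 / τ * EE (Nc τ c) := by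
  have hτ0 : 0 < τ := by linarith
  obtain ⟨l1, l2, l3, l4⟩ := EE_Nc_low hK hKU hc hτ0 hh
  have hcl := hK.isClosed
  have k1 : EE (fun z => c z ^ 2) ≤ 1 / τ * EE (Nc τ c) := by
    have : EE (fun z => τ * c z ^ 2) = τ * EE (fun z => c z ^ 2) := EE_cmul _ _
    rw [this] at l1
    rw [one_div, ← div_eq_inv_mul, le_div_iff₀ hτ0]
    linarith
  refine ⟨?_, k1⟩
  have hN : 0 ≤ EE (Nc τ c) := (mul_nonneg hτ0.le hh).trans l3
  have k2 : EE (fun z => c z ^ 2) ≤ EE (Nc τ c) := by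
    refine k1.trans ?_
    have : 1 / τ ≤ 1 := by rw [div_le_one hτ0]; exact hτ
    nlinarith
  have p1 : CZ K (fun z => τ ^ 3 * (uu z * ps z ^ 2) * c z ^ 2) :=
    hc.sq.mul_left (contDiffOn_const.mul (su_uu.mul (su_ps.pow 2)))
  have p2 : CZ K (fun z => τ * c z ^ 2) := hc.sq.cmul τ
  have k3 : EE (fun z => τ ^ 2 * (uu z ^ 2 - 1) * c z ^ 2) ≤ 3 * EE (Nc τ c) := by
    have : EE (fun z => τ ^ 2 * (uu z ^ 2 - 1) * c z ^ 2) ≤
        EE (fun z => τ ^ 3 * (uu z * ps z ^ 2) * c z ^ 2 + 2 * (τ * c z ^ 2)) := by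
      refine EE_mono hK hKU (hc.sq.mul_left (contDiffOn_const.mul
        ((su_uu.pow 2).sub contDiffOn_const))) (p1.add (p2.cmul 2)) fun z hz => ?_
      have hu := one_le_uu hz
      have hps := ps_nonneg hz
      rw [← uu_ps hz]
      have key : τ ^ 2 * (uu z * ps z) ≤ τ ^ 3 * (uu z * ps z ^ 2) + 2 * τ := by
        rcases le_or_gt 1 (τ * ps z) with h | h
        · have : τ ^ 2 * (uu z * ps z) * 1 ≤ τ ^ 2 * (uu z * ps z) * (τ * ps z) :=
            mul_le_mul_of_nonneg_left h (by positivity)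
          have e : τ ^ 2 * (uu z * ps z) * (τ * ps z) = τ ^ 3 * (uu z * ps z ^ 2) := by ring
          linarith
        · have hps1 : ps z ≤ 1 := by nlinarith
          have hu2 : uu z ≤ 2 := by
            have := one_le_inv_uu hz
            unfold ps at hps1
            linarith
          have h3 : 0 ≤ τ ^ 3 * (uu z * ps z ^ 2) := by positivity
          have h4 : τ ^ 2 * (uu z * ps z) ≤ 2 * τ := by
            calc τ ^ 2 * (uu z * ps z) = τ * uu z * (τ * ps z) := by ring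
              _ ≤ τ * uu z * 1 := mul_le_mul_of_nonneg_left h.le (by positivity)
              _ ≤ τ * 2 * 1 := by gcongr
              _ = 2 * τ := by ring
          linarith
      calc τ ^ 2 * (uu z * ps z) * c z ^ 2
          ≤ (τ ^ 3 * (uu z * ps z ^ 2) + 2 * τ) * c z ^ 2 :=
            mul_le_mul_of_nonneg_right key (sq_nonneg _)
        _ = _ := by ring
    rw [EE_add hK hKU p1 (p2.cmul 2), EE_cmul] at this
    linarith
  have : EE (Fo τ c) = EE (g2 c) + EE (fun z => τ ^ 2 * (uu z ^ 2 - 1) * c z ^ 2)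
      + EE (fun z => c z ^ 2) := by
    have e : Fo τ c = fun z => g2 c z + τ ^ 2 * (uu z ^ 2 - 1) * c z ^ 2 + c z ^ 2 := rfl
    have p3 : CZ K (fun z => τ ^ 2 * (uu z ^ 2 - 1) * c z ^ 2) :=
      hc.sq.mul_left (contDiffOn_const.mul ((su_uu.pow 2).sub contDiffOn_const))
    rw [e, EE_add hK hKU ((hc.g2 hcl).add p3) hc.sq, EE_add hK hKU (hc.g2 hcl) p3]
  rw [this]
  linarith

/-- `Fo` of a combination. -/
theorem Fo_half_add {f g : VV n → ℝ} (hf : SU f) (hg : SU g) (τ : ℝ) {z : VV n} (hz : z ∈ Un n) :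
    Fo τ (fun z => (f z + g z) / 2) z ≤ Fo τ f z + Fo τ g z := by
  have hA : ∀ i, Ax i (fun z => (f z + g z) / 2) z = (Ax i f z + Ax i g z) / 2 := by
    intro i
    have e : (fun z => (f z + g z) / 2) = fun z => (1 / 2 : ℝ) * (f z + g z) := by
      ext; ring
    rw [e, Ax_eq, Dr_cmul, Dr_add hf hg hz]
    ring
  have hB : ∀ i, By i (fun z => (f z + g z) / 2) z = (By i f z + By i g z) / 2 := by
    intro i
    have e : (fun z => (f z + g z) / 2) = fun z => (1 / 2 : ℝ) * (f z + g z) := by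
      ext; ring
    rw [e, By_eq, Dr_cmul, Dr_add hf hg hz]
    ring
  have h2 : 0 ≤ uu z ^ 2 - 1 := by
    have : 1 ≤ uu z ^ 2 := one_le_pow₀ (one_le_uu hz)
    linarith
  have hg2 : g2 (fun z => (f z + g z) / 2) z ≤ g2 f z + g2 g z := by
    unfold g2
    simp only [hA, hB]
    have s1 : ∑ i, ((Ax i f z + Ax i g z) / 2) ^ 2 ≤ ∑ i, Ax i f z ^ 2 + ∑ i, Ax i g z ^ 2 := by
      rw [← Finset.sum_add_distrib]
      exact Finset.sum_le_sum fun i _ => by nlinarith [sq_nonneg (Ax i f z - Ax i g z)]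
    have s2 : ∑ i, ((By i f z + By i g z) / 2) ^ 2 ≤ ∑ i, By i f z ^ 2 + ∑ i, By i g z ^ 2 := by
      rw [← Finset.sum_add_distrib]
      exact Finset.sum_le_sum fun i _ => by nlinarith [sq_nonneg (By i f z - By i g z)]
    linarith
  have hsq : ((f z + g z) / 2) ^ 2 ≤ f z ^ 2 + g z ^ 2 := by nlinarith [sq_nonneg (f z - g z)]
  unfold Fo
  have h3 : τ ^ 2 * (uu z ^ 2 - 1) * ((f z + g z) / 2) ^ 2 ≤
      τ ^ 2 * (uu z ^ 2 - 1) * (f z ^ 2 + g z ^ 2) :=
    mul_le_mul_of_nonneg_left hsq (by positivity)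
  linarith

end Vale.Agent.P088.HY.H16
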