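import Vale.Agent.P088.R2.H16.Co2

/-!
# P088, row CO2: the final assembly
-/

open MeasureTheory Set
open scoped ContDiff Matrix

noncomputable section

namespace Vale.Agent.P088.HY.H16

open Vale.Agent.P088.LR Vale.Agent.P088.HY

variable {n : ℕ}

theorem intOn_ball {w : VV n → ℝ} (hw : ContDiffOn ℝ ∞ w (Un n)) {τ : ℝ} (hτpos : 0 < τ)
    (hτn : 32 * n ≤ τ)
    (hwI : IntegrableOn (fun z => w z ^ 2 * Real.exp (-(2 * τ * (uu z - 1)))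
      / (rr z.1 * rr z.2) ^ 2) (Un n)) {p : V n} (hp : p ∈ Bs n (1 / 2))
    (hsub : Metric.ball (p, p) (2 / √τ) ⊆ Un n) :
    IntegrableOn (fun z => w z ^ 2) (Metric.ball (p, p) (2 / √τ)) := by
  refine Integrable.mono' ((hwI.mono_set hsub).const_mul (Real.exp (1024 * n))) ?_ ?_
  · exact (((hw.continuousOn.mono hsub).pow 2).aestronglyMeasurable
      Metric.isOpen_ball.measurableSet)
  · refine (ae_restrict_iff' Metric.isOpen_ball.measurableSet).2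
      (Filter.Eventually.of_forall fun z hz => ?_)
    rw [Real.norm_of_nonneg (sq_nonneg _)]
    have hl := wgt_lower hτpos hτn hp hz
    have e1 : Real.exp (1024 * n) * (w z ^ 2 * Real.exp (-(2 * τ * (uu z - 1)))
        / (rr z.1 * rr z.2) ^ 2) = w z ^ 2 * (Real.exp (1024 * n) * wgt τ z) := by
      unfold wgt; ring
    rw [e1]
    have e2 : 1 ≤ Real.exp (1024 * n) * wgt τ z := by
      calc (1 : ℝ) = Real.exp (1024 * n) * Real.exp (-(1024 * n)) := by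
            rw [← Real.exp_add]; simp
        _ ≤ Real.exp (1024 * n) * wgt τ z := mul_le_mul_of_nonneg_left hl (Real.exp_pos _).le
    nlinarith [sq_nonneg (w z)]

/-- The constant. -/
def CG (n : ℕ) (CT CI CS CQ vol : ℝ) : ℝ :=
  2 * (CT * (n ^ 2 * CT * CI ^ 2 * (4 ^ n * Real.exp (1024 * n) * (CS * CQ) + CQ ^ 2 * vol)))

theorem core {CT CI CS CQ Y τ H M J vol X : ℝ} (hCT : 0 < CT) (hCS : 0 < CS) (hCQ : 0 < CQ)
    (hvol : 0 ≤ vol) (hτ : 1 ≤ τ) (hM : M = CQ * H / τ)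
    (hYT : Y ≤ CT * X)
    (hpair : X ≤ Y / (2 * CT) + n ^ 2 * CT * CI ^ 2 *
        (4 ^ n * Real.exp (1024 * n) * √τ ^ (n + 4) * J + M ^ 2 * vol))
    (hJ : J ≤ CS / τ * (CQ * H ^ 2 / √τ ^ (n + 4))) :
    Y ≤ CG n CT CI CS CQ vol * (H ^ 2 / τ) := by
  have hτpos : 0 < τ := by linarith
  have hs : 0 < √τ := Real.sqrt_pos.2 hτpos
  have r1 : 4 ^ n * Real.exp (1024 * n) * √τ ^ (n + 4) * J ≤
      4 ^ n * Real.exp (1024 * n) * (CS * CQ) * (H ^ 2 / τ) := by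
    calc 4 ^ n * Real.exp (1024 * n) * √τ ^ (n + 4) * J
        ≤ 4 ^ n * Real.exp (1024 * n) * √τ ^ (n + 4) *
          (CS / τ * (CQ * H ^ 2 / √τ ^ (n + 4))) :=
          mul_le_mul_of_nonneg_left hJ (by positivity)
      _ = _ := by field_simp
  have r2 : M ^ 2 * vol ≤ CQ ^ 2 * vol * (H ^ 2 / τ) := by
    have : M ^ 2 ≤ CQ ^ 2 * (H ^ 2 / τ) := by
      rw [hM, div_pow, mul_pow, mul_div_assoc]
      refine mul_le_mul_of_nonneg_left ?_ (by positivity)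
      refine div_le_div_of_nonneg_left (by positivity) hτpos ?_
      nlinarith
    calc M ^ 2 * vol ≤ CQ ^ 2 * (H ^ 2 / τ) * vol := mul_le_mul_of_nonneg_right this hvol
      _ = _ := by ring
  have hR : 4 ^ n * Real.exp (1024 * n) * √τ ^ (n + 4) * J + M ^ 2 * vol ≤
      (4 ^ n * Real.exp (1024 * n) * (CS * CQ) + CQ ^ 2 * vol) * (H ^ 2 / τ) := by
    linarith
  have h5 : Y ≤ CT * (Y / (2 * CT) + n ^ 2 * CT * CI ^ 2 *
      ((4 ^ n * Real.exp (1024 * n) * (CS * CQ) + CQ ^ 2 * vol) * (H ^ 2 / τ))) := by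
    refine hYT.trans (mul_le_mul_of_nonneg_left (hpair.trans ?_) hCT.le)
    gcongr
  have h6 : CT * (Y / (2 * CT)) = Y / 2 := by field_simp
  rw [mul_add, h6] at h5
  have h7 : CG n CT CI CS CQ vol * (H ^ 2 / τ) = 2 * (CT * (n ^ 2 * CT * CI ^ 2 *
      ((4 ^ n * Real.exp (1024 * n) * (CS * CQ) + CQ ^ 2 * vol) * (H ^ 2 / τ)))) := by
    unfold CG; ring
  rw [h7]
  linarith

/-- The analytic part, for fixed `H` and `τ`. -/
theorem stepA (hS : RowSOL) (hI : RowINP) (hQ : RowQM) (hO : RowORT) (hT : RowTFR) (hn : 3 ≤ n) :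
    ∃ (K : ℕ) (C ε εS τ₀ : ℝ), 0 < C ∧ 0 < ε ∧ 0 < εS ∧ 0 < τ₀ ∧ ∀ s₁ s₂ : MF n, TS n K ε s₁ →
    TS n K ε s₂ → ∀ Ω : Set (V n), IsOpen Ω → Ω ⊆ Bs n (1 / 2) → (∀ x ∉ Ω, s₂ x = s₁ x) →
    CF.St2 Ω s₁ s₂ → ∀ H τ : ℝ, 0 ≤ H → DB K H s₁ s₂ → τ₀ ≤ τ → τ * H ≤ εS →
    ∫ x, hs2 s₁ s₂ x ≤ C * (H ^ 2 / τ) := by
  obtain ⟨CS, εS, τS, hCS, hεS, hτS, hS⟩ := hS n hn
  obtain ⟨KI, CI, εI, hCI, hεI, hI⟩ := hI n
  obtain ⟨KQ, CQ, εQ, τQ, hCQ, hεQ, hτQ, hQ⟩ := hQ n KI hn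
  obtain ⟨KO, εO, hεO, hO⟩ := hO n
  obtain ⟨CT, εT, hCT, hεT, hT⟩ := hT n hn
  have hvol0 : 0 ≤ volume.real (Bs n (1 / 2)) := measureReal_nonneg
  refine ⟨KI + KQ + KO + 3, CG n CT CI CS CQ (volume.real (Bs n (1 / 2))) + 1,
    min (min (min εS εI) (min εQ εO)) εT, εS, τS + τQ + 32 * n + 1, ?_, ?_, hεS, by positivity, ?_⟩
  · unfold CG; positivity
  · simp only [lt_min_iff]; exact ⟨⟨⟨hεS, hεI⟩, hεQ, hεO⟩, hεT⟩
  intro s₁ s₂ hs₁ hs₂ Ω hΩ hΩB hoffΩ hSt H τ hH0 hDB hττ0 hτH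
  have lS : min (min (min εS εI) (min εQ εO)) εT ≤ εS :=
    (min_le_left _ _).trans ((min_le_left _ _).trans (min_le_left _ _))
  have lI : min (min (min εS εI) (min εQ εO)) εT ≤ εI :=
    (min_le_left _ _).trans ((min_le_left _ _).trans (min_le_right _ _))
  have lQ : min (min (min εS εI) (min εQ εO)) εT ≤ εQ :=
    (min_le_left _ _).trans ((min_le_right _ _).trans (min_le_left _ _))
  have lO : min (min (min εS εI) (min εQ εO)) εT ≤ εO :=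
    (min_le_left _ _).trans ((min_le_right _ _).trans (min_le_right _ _))
  have lT : min (min (min εS εI) (min εQ εO)) εT ≤ εT := min_le_right _ _
  have hoff : ∀ x ∉ Bs n (1 / 2), s₂ x = s₁ x := fun x hx => hoffΩ x fun h => hx (hΩB h)
  have hm1 := hs₁.sm
  have hm2 := hs₂.sm
  have hn0 : (0 : ℝ) ≤ 32 * n := by positivity
  have hττS : τS ≤ τ := by linarith
  have hττQ : τQ ≤ τ := by linarith
  have hτn : 32 * (n : ℝ) ≤ τ := by linarith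
  have hτ1 : 1 ≤ τ := by linarith
  have hτpos : 0 < τ := by linarith
  have hs : 0 < √τ := Real.sqrt_pos.2 hτpos
  -- the quasimode
  obtain ⟨k, hk, hkI, hkJ, hkb, hkP⟩ := hQ s₁ s₂ (TS_mono (by omega) lQ hs₁)
    (TS_mono (by omega) lQ hs₂) hoff H τ
    (fun i j => Cl_mono (by omega) le_rfl (hDB i j)) hττQ
  -- the correction
  obtain ⟨w, hw, hw1, hw2, hwI, hwJ⟩ := hS s₁ s₂ (TS_mono (by omega) lS hs₁)
    (TS_mono (by omega) lS hs₂) H τ hH0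
    (fun i j => Cl_mono (by omega) le_rfl (hDB i j)) hττS hτH
    (Lx s₁ k) (Ly s₂ k) (contDiffOn_Lx isOpen_Un hm1 hk) (contDiffOn_Ly isOpen_Un hm2 hk)
    (Ly_Lx isOpen_Un hm1 hm2 hk) hkI
  -- orthogonality
  have hort := hO s₁ s₂ (TS_mono (by omega) lO hs₁) (TS_mono (by omega) lO hs₂) Ω hΩ hΩB
    hoffΩ hSt (fun z => k z - w z) (hk.sub hw)
    (fun z hz => by rw [Lx_sub isOpen_Un s₁ hk hw z hz, hw1 z hz, sub_self])
    (fun z hz => by rw [Ly_sub isOpen_Un s₂ hk hw z hz, hw2 z hz, sub_self])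
  have hkw : ∫ p in Bs n (1 / 2), pr s₁ s₂ k p = ∫ p in Bs n (1 / 2), pr s₁ s₂ w p := by
    have e1 : ∫ p in Bs n (1 / 2), pr s₁ s₂ (fun z => k z - w z) p = 0 := hort
    rw [setIntegral_congr_fun (isOpen_Bs _).measurableSet (fun p hp => pr_sub hk hw hp),
      integral_sub (integrableOn_Bs (pr_cont hm1 hm2 hk))
        (integrableOn_Bs (pr_cont hm1 hm2 hw))] at e1
    linarith
  have hYT : ∫ x, hs2 s₁ s₂ x ≤ CT * ∫ p in Bs n (1 / 2), pr s₁ s₂ w p := by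
    have h3 := hT s₁ s₂ (TS_mono (by omega) lT hs₁) (TS_mono (by omega) lT hs₂) hoff
    have e3 : ∫ p, ∑ i, ∑ j, (s₂ p i j - s₁ p i j) * tfp s₁ (fun x => s₂ x - s₁ x) p i j
        = ∫ p in Bs n (1 / 2),
          ∑ i, ∑ j, (s₂ p i j - s₁ p i j) * tfp s₁ (fun x => s₂ x - s₁ x) p i j := by
      refine (setIntegral_eq_integral_of_forall_compl_eq_zero fun x hx => ?_).symm
      simp [hoff x hx]
    rw [e3, ← hkP] at h3
    rw [← hkw]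
    exact h3
  -- interior estimate
  have hsub : ∀ p ∈ Bs n (1 / 2), Metric.ball (p, p) (2 / √τ) ⊆ Un n := fun p hp => (hkb p hp).1
  have hDw : ∀ p ∈ Bs n (1 / 2), ∀ i j, |dx i (dy j w) (p, p)| ≤
      CI * (√τ ^ (n + 2) * √(∫ z in Metric.ball (p, p) (2 / √τ), w z ^ 2) + CQ * H / τ) := by
    intro p hp i j
    refine hI s₁ s₂ hm1 hm2 (fun i j => Cl_mono (by omega) lI (hs₁.cl i j))
      (fun i j => Cl_mono (by omega) lI (hs₂.cl i j)) p √τ (by rw [Real.one_le_sqrt]; exact hτ1)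
      w (fun z => Lx s₁ k z + Ly s₂ k z) (hw.mono (hsub p hp)) ?_ ?_
      (intOn_ball hw hτpos hτn hwI hp (hsub p hp)) (CQ * H / τ) ?_ i j
    · exact ((contDiffOn_Lx isOpen_Un hm1 hk).add (contDiffOn_Ly isOpen_Un hm2 hk)).mono
        (hsub p hp)
    · intro z hz
      rw [hw1 z (hsub p hp hz), hw2 z (hsub p hp hz)]
    · intro l hl z hz
      exact (hkb p hp).2 l hl z hz
  have hpair := pair_est hm1 hm2 hw hτ1 hτn hwI hsub hCI (by positivity) hCT hDw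
  rw [int_hs2_eq hoff] at hpair
  refine (core hCT hCS hCQ hvol0 hτ1 rfl hYT hpair
    (hwJ.trans (mul_le_mul_of_nonneg_left hkJ (by positivity)))).trans ?_
  have : 0 ≤ H ^ 2 / τ := by positivity
  nlinarith

/-- The arithmetic of the end. -/
theorem arith {C C1 y e εS τ₀ Y : ℝ} (hC : 0 < C) (hC1 : 0 < C1) (hy : 0 < y) (hy1 : y ≤ 1)
    (he : 0 < e) (he1 : e ≤ 1) (hεS : 0 < εS) (hτ₀ : 0 < τ₀) (hY : Y = y ^ 8)
    (h1 : e * (τ₀ * C1 / εS) ≤ 1) (h2 : e * (C * C1 ^ 3 / εS) < 1)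
    (h : ∀ τ, τ₀ ≤ τ → τ * (C1 * y ^ 3 * e) ≤ εS → Y ≤ C * ((C1 * y ^ 3 * e) ^ 2 / τ)) :
    False := by
  have hH0 : 0 < C1 * y ^ 3 * e := by positivity
  have hHC : C1 * y ^ 3 * e ≤ C1 * e := by
    have : y ^ 3 ≤ 1 := pow_le_one₀ hy.le hy1
    calc C1 * y ^ 3 * e ≤ C1 * 1 * e := by gcongr
      _ = C1 * e := by ring
  have h3 := h (εS / (C1 * y ^ 3 * e)) (by
    rw [le_div_iff₀ hH0]
    have h3 : e * (τ₀ * C1) ≤ εS := by
      rw [← mul_div_assoc, div_le_one hεS] at h1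
      exact h1
    calc τ₀ * (C1 * y ^ 3 * e) ≤ τ₀ * (C1 * e) := mul_le_mul_of_nonneg_left hHC hτ₀.le
      _ = e * (τ₀ * C1) := by ring
      _ ≤ εS := h3) (by rw [div_mul_cancel₀ _ hH0.ne'])
  have h4 : C * ((C1 * y ^ 3 * e) ^ 2 / (εS / (C1 * y ^ 3 * e)))
      = (e * (C * C1 ^ 3 / εS)) * (y * e ^ 2) * y ^ 8 := by
    field_simp
  rw [h4] at h3
  have h10 : 0 ≤ e * (C * C1 ^ 3 / εS) := by positivity
  have h11 : y * e ^ 2 ≤ 1 := by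
    calc y * e ^ 2 ≤ 1 * 1 :=
          mul_le_mul hy1 (pow_le_one₀ he.le he1) (by positivity) zero_le_one
      _ = 1 := one_mul 1
  have h9 : (e * (C * C1 ^ 3 / εS)) * (y * e ^ 2) * y ^ 8 < Y := by
    calc (e * (C * C1 ^ 3 / εS)) * (y * e ^ 2) * y ^ 8
        ≤ (e * (C * C1 ^ 3 / εS)) * 1 * y ^ 8 := by gcongr
      _ = (e * (C * C1 ^ 3 / εS)) * y ^ 8 := by ring
      _ < 1 * y ^ 8 := mul_lt_mul_of_pos_right h2 (by positivity)
      _ = Y := by rw [one_mul, hY]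
  linarith

theorem rowCO2 : RowSOL → RowINP → RowQM → RowORT → RowTFR → RowITP → RowCO2 := by
  intro hSOL hINP hQM hORT hTFR hITP n hn
  obtain ⟨K, C, εA, εS, τ₀, hC, hεA, hεS, hτ₀, hA⟩ := stepA hSOL hINP hQM hORT hTFR hn
  obtain ⟨K1, C1, hC1, h1⟩ := hITP n K
  set A : ℝ := n ^ 2 * volume.real (Bs n (1 / 2)) with hAdef
  have hA0 : 0 ≤ A := by positivity
  have q1 : 0 ≤ 1 / εA := by positivity
  have q6 : 0 ≤ τ₀ * C1 / εS := by positivity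
  have q7 : 0 ≤ C * C1 ^ 3 / εS := by positivity
  obtain ⟨e, he0, he1, heε, heA, heτ, heC⟩ : ∃ e : ℝ, 0 < e ∧ e ≤ 1 / 2 ∧ e ≤ εA ∧ e * A ≤ 1 ∧
      e * (τ₀ * C1 / εS) ≤ 1 ∧ e * (C * C1 ^ 3 / εS) < 1 := by
    have hD0 : 0 < 2 + 1 / εA + A + τ₀ * C1 / εS + C * C1 ^ 3 / εS := by linarith
    refine ⟨1 / (2 + 1 / εA + A + τ₀ * C1 / εS + C * C1 ^ 3 / εS), by positivity, ?_, ?_, ?_, ?_, ?_⟩
    · exact one_div_le_one_div_of_le (by norm_num) (by linarith)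
    · rw [div_le_iff₀ hD0]
      have : εA * (1 / εA) = 1 := by field_simp
      nlinarith
    · rw [one_div, inv_mul_le_iff₀ hD0]; linarith
    · rw [one_div, inv_mul_le_iff₀ hD0]; linarith
    · rw [one_div, inv_mul_lt_iff₀ hD0]; linarith
  have he1' : e ≤ 1 := by linarith
  have hε0 : 0 < e ^ 4 / 2 := by positivity
  have hεe : e ^ 4 / 2 ≤ e := by
    have : e ^ 4 ≤ e := by
      calc e ^ 4 = e * e ^ 3 := by ring
        _ ≤ e * 1 := mul_le_mul_of_nonneg_left (pow_le_one₀ he0.le he1') he0.le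
        _ = e := mul_one _
    linarith
  refine ⟨K + K1, e ^ 4 / 2, hε0, ?_⟩
  intro s₁ s₂ hs₁ hs₂ Ω hΩ hΩB hoffΩ hSt
  have hoff : ∀ x ∉ Bs n (1 / 2), s₂ x = s₁ x := fun x hx => hoffΩ x fun h => hx (hΩB h)
  by_contra hne
  have hm1 := hs₁.sm
  have hm2 := hs₂.sm
  have hY0 : 0 < ∫ x, hs2 s₁ s₂ x := int_hs2_pos hm1 hm2 hoff hne
  have hDB : DB (K + K1) (e ^ 4) s₁ s₂ := by
    have := DB_of_TS hs₁ hs₂
    have e2 : 2 * (e ^ 4 / 2) = e ^ 4 := by ring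
    rwa [e2] at this
  have hY1 : ∫ x, hs2 s₁ s₂ x ≤ 1 := by
    have hb : ∀ i j x, |s₂ x i j - s₁ x i j| ≤ e ^ 4 := by
      intro i j x
      have := hDB i j 0 (Nat.zero_le _) x
      rwa [norm_iteratedFDeriv_zero, Real.norm_eq_abs, abs_sub_comm] at this
    have h2 := int_hs2_le (by positivity) hoff hb
    calc ∫ x, hs2 s₁ s₂ x ≤ A * (e ^ 4) ^ 2 := h2
      _ = (e * A) * e ^ 7 := by ring
      _ ≤ 1 * 1 := mul_le_mul heA (pow_le_one₀ he0.le he1') (by positivity) zero_le_one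
      _ = 1 := one_mul 1
  have hy0 : 0 < (∫ x, hs2 s₁ s₂ x) ^ (1 / 8 : ℝ) := Real.rpow_pos_of_pos hY0 _
  have hy8 : (∫ x, hs2 s₁ s₂ x) = ((∫ x, hs2 s₁ s₂ x) ^ (1 / 8 : ℝ)) ^ 8 := by
    rw [← Real.rpow_natCast, ← Real.rpow_mul hY0.le]; norm_num
  have hy3 : (∫ x, hs2 s₁ s₂ x) ^ (3 / 8 : ℝ) = ((∫ x, hs2 s₁ s₂ x) ^ (1 / 8 : ℝ)) ^ 3 := by
    rw [← Real.rpow_natCast, ← Real.rpow_mul hY0.le]; norm_num
  have hy1 : (∫ x, hs2 s₁ s₂ x) ^ (1 / 8 : ℝ) ≤ 1 := Real.rpow_le_one hY0.le hY1 (by norm_num)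
  have he4 : (e ^ 4) ^ (1 / 4 : ℝ) = e := by
    rw [← Real.rpow_natCast, ← Real.rpow_mul he0.le]; norm_num
  have hDBH : DB K (C1 * ((∫ x, hs2 s₁ s₂ x) ^ (1 / 8 : ℝ)) ^ 3 * e) s₁ s₂ := by
    intro i j
    have hf := h1 (fun x => s₁ x i j - s₂ x i j) ((hm1 i j).sub (hm2 i j)) (by
      intro x hx
      have : s₂ x = s₁ x := hoff x fun h => hx (Bs_subset_Bn h)
      rw [this]; simp) (e ^ 4)
      (Cl_mono (k := K + K1) (k' := K1) (by omega) le_rfl (hDB i j))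
    refine Cl_mono le_rfl ?_ hf
    rw [he4, ← hy3]
    have h3 : (∫ x, (s₁ x i j - s₂ x i j) ^ 2) ^ (3 / 8 : ℝ)
        ≤ (∫ x, hs2 s₁ s₂ x) ^ (3 / 8 : ℝ) := by
      refine Real.rpow_le_rpow (integral_nonneg fun x => sq_nonneg _) ?_ (by norm_num)
      have e3 : ∀ x, (s₁ x i j - s₂ x i j) ^ 2 = (s₂ x i j - s₁ x i j) ^ 2 := fun x => by ring
      simp only [e3]
      exact int_hh_le hm1 hm2 hoff i j
    gcongr
  refine arith hC hC1 hy0 hy1 he0 he1' hεS hτ₀ hy8 heτ heC fun τ hτ hτH => ?_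
  exact hA s₁ s₂ (TS_mono (by omega) (hεe.trans heε) hs₁) (TS_mono (by omega) (hεe.trans heε) hs₂)
    Ω hΩ hΩB hoffΩ hSt _ τ (by positivity) hDBH hτ hτH

end Vale.Agent.P088.HY.H16
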